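import Vale.Agent.Lib.P243.Cover

open MeasureTheory Set Module Metric
open scoped ENNReal Pointwise NNReal Topology

namespace Vale.Agent.Lib.P243

lemma Good.mono {K : Set E3} {ε ε' : ℝ} (h : Good K ε) (hle : ε' ≤ ε) : Good K ε' := by
  intro n P B hP hB hcov
  exact (ENNReal.ofReal_le_ofReal (by linarith)).trans (h n P B hP hB hcov)

/-- The covering property is invariant under affine isomorphisms. -/
lemma Good.affine {K : Set E3} {ε : ℝ} (h : Good K ε) (A : E3 ≃L[ℝ] E3) (z : E3) :
    Good ((fun x => A x + z) '' K) ε := by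
  intro n P B hP hB hcov
  let P' : Fin n → E3 →ₗ[ℝ] E2 := fun i => (P i).comp (A : E3 →ₗ[ℝ] E3)
  let B' : Fin n → Set E2 := fun i => (fun y => y + P i z) ⁻¹' B i
  have hP' : ∀ i, Function.Surjective (P' i) := fun i => (hP i).comp A.surjective
  have hB' : ∀ i, MeasurableSet (B' i) := fun i => (measurable_add_const _) (hB i)
  have hcov' : K ⊆ ⋃ i, P' i ⁻¹' B' i := by
    intro x hx
    obtain ⟨i, hi⟩ := mem_iUnion.1 (hcov ⟨x, hx, rfl⟩)
    refine mem_iUnion.2 ⟨i, ?_⟩
    simp only [mem_preimage, map_add] at hi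
    exact hi
  have h1 := h n P' B' hP' hB' hcov'
  refine h1.trans_eq (Finset.sum_congr rfl fun i _ => ?_)
  have e1 : volume (B' i) = volume (B i) := measure_preimage_add_right _ _ _
  have e2 : P i '' ((fun x => A x + z) '' K) = (fun y => y + P i z) '' (P' i '' K) := by
    rw [image_image, image_image]
    apply image_congr
    intro x _
    simp [P']
  have e3 : volume (P i '' ((fun x => A x + z) '' K)) = volume (P' i '' K) := by
    rw [e2]
    simp only [image_add_right, measure_preimage_add_right]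
  rw [e1, e3]

/-- Homothety with centre `z` and ratio `s`. -/
def hom (z : E3) (s : ℝ) (x : E3) : E3 := z + s • (x - z)

lemma Good.sandwich {K K' : Set E3} {ε a z' : ℝ} (ha : 0 ≤ a) (h : Good K ε) (z : E3)
    (h1 : K ⊆ hom z (1 + a) '' K') (h2 : K' ⊆ hom z (1 + a) '' K)
    (hz' : 1 / 3 + z' ≤ (1 / 3 + ε) / (1 + a) ^ 4) : Good K' z' := by
  intro n P B hP hB hcov
  have h1a : 0 < 1 + a := by linarith
  have hadd : ∀ (u : E2) (s : ℝ) (S : Set E2),
      volume ((fun y => u + s • (y - u)) '' S) = ENNReal.ofReal (|s| ^ 2) * volume S := by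
    intro u s S
    have : (fun y => u + s • (y - u)) '' S = (AffineMap.homothety u s) '' S := by
      apply image_congr
      intro y _
      simp [AffineMap.homothety_apply, add_comm]
    rw [this, Measure.addHaar_image_homothety]
    simp
  let B' : Fin n → Set E2 := fun i => (fun y => P i z + (1 + a) • (y - P i z)) '' B i
  have hB' : ∀ i, MeasurableSet (B' i) := by
    intro i
    have : B' i = (fun y => P i z + (1 + a)⁻¹ • (y - P i z)) ⁻¹' B i := by
      ext y
      constructor
      · rintro ⟨x, hx, rfl⟩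
        simp only [mem_preimage, add_sub_cancel_left]
        rw [inv_smul_smul₀ h1a.ne', add_sub_cancel]
        exact hx
      · intro hy
        refine ⟨_, hy, ?_⟩
        simp only [add_sub_cancel_left]
        rw [smul_inv_smul₀ h1a.ne', add_sub_cancel]
    rw [this]
    exact (by fun_prop : Measurable fun y : E2 => P i z + (1 + a)⁻¹ • (y - P i z)) (hB i)
  have hcov' : K ⊆ ⋃ i, P i ⁻¹' B' i := by
    intro x hx
    obtain ⟨x', hx', rfl⟩ := h1 hx
    obtain ⟨i, hi⟩ := mem_iUnion.1 (hcov hx')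
    refine mem_iUnion.2 ⟨i, P i x', hi, ?_⟩
    simp [hom]
  have hvB : ∀ i, volume (B' i) = ENNReal.ofReal ((1 + a) ^ 2) * volume (B i) := by
    intro i
    have := hadd (P i z) (1 + a) (B i)
    rw [abs_of_pos h1a] at this
    exact this
  have hvP : ∀ i, volume (P i '' K') ≤ ENNReal.ofReal ((1 + a) ^ 2) * volume (P i '' K) := by
    intro i
    have := hadd (P i z) (1 + a) (P i '' K)
    rw [abs_of_pos h1a] at this
    rw [← this]
    apply measure_mono
    rintro _ ⟨x, hx, rfl⟩
    obtain ⟨x', hx', rfl⟩ := h2 hx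
    exact ⟨P i x', ⟨x', hx', rfl⟩, by simp [hom]⟩
  have key := h n P B' hP hB' hcov'
  have hs0 : ENNReal.ofReal ((1 + a) ^ 2) ≠ 0 := by
    rw [Ne, ENNReal.ofReal_eq_zero, not_le]; positivity
  have hst : ENNReal.ofReal ((1 + a) ^ 2) ≠ ⊤ := ENNReal.ofReal_ne_top
  have hterm : ∀ i, volume (B' i) / volume (P i '' K) ≤
      ENNReal.ofReal ((1 + a) ^ 4) * (volume (B i) / volume (P i '' K')) := by
    intro i
    rw [hvB i]
    have e1 : ENNReal.ofReal ((1 + a) ^ 4) =
        ENNReal.ofReal ((1 + a) ^ 2) * ENNReal.ofReal ((1 + a) ^ 2) := by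
      rw [← ENNReal.ofReal_mul (by positivity)]; congr 1; ring
    calc ENNReal.ofReal ((1 + a) ^ 2) * volume (B i) / volume (P i '' K)
        = ENNReal.ofReal ((1 + a) ^ 4) * (volume (B i) /
            (ENNReal.ofReal ((1 + a) ^ 2) * volume (P i '' K))) := by
          rw [e1, mul_assoc, mul_div_assoc, ← mul_div_assoc (ENNReal.ofReal ((1 + a) ^ 2))
            (volume (B i)) (ENNReal.ofReal ((1 + a) ^ 2) * volume (P i '' K)),
            ENNReal.mul_div_mul_left _ _ hs0 hst]
      _ ≤ _ := by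
          gcongr
          exact hvP i
  have h4 : ENNReal.ofReal (1 / 3 + ε) ≤
      ENNReal.ofReal ((1 + a) ^ 4) * ∑ i, volume (B i) / volume (P i '' K') := by
    calc _ ≤ _ := key
      _ ≤ ∑ i, ENNReal.ofReal ((1 + a) ^ 4) * (volume (B i) / volume (P i '' K')) :=
          Finset.sum_le_sum fun i _ => hterm i
      _ = _ := by rw [Finset.mul_sum]
  calc ENNReal.ofReal (1 / 3 + z') ≤ ENNReal.ofReal ((1 / 3 + ε) / (1 + a) ^ 4) :=
        ENNReal.ofReal_le_ofReal hz'
    _ = ENNReal.ofReal (1 / 3 + ε) / ENNReal.ofReal ((1 + a) ^ 4) :=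
        ENNReal.ofReal_div_of_pos (by positivity)
    _ ≤ _ := ENNReal.div_le_of_le_mul' h4

/-- Two sets close in Hausdorff distance and containing a common ball are sandwiched. -/
lemma sandwich_of_close {K K' : Set E3} (hcv' : Convex ℝ K') {z : E3} {ρ δ : ℝ} (hρ : 0 < ρ)
    (hδ : 0 < δ) (hball : closedBall z ρ ⊆ K') (hd : ∀ x ∈ K, ∃ x' ∈ K', dist x x' ≤ δ) :
    K ⊆ hom z (1 + δ / ρ) '' K' := by
  intro x hx
  obtain ⟨x', hx', hxx'⟩ := hd x hx
  set a := δ / ρ with ha
  have ha0 : 0 < a := by positivity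
  have h1a : (1 + a) ≠ 0 := by positivity
  have hmem : z + a⁻¹ • (x - x') ∈ K' := hball (by
    rw [mem_closedBall, dist_eq_norm, add_sub_cancel_left, norm_smul, norm_inv,
      Real.norm_of_nonneg ha0.le, ← dist_eq_norm]
    rw [inv_mul_le_iff₀ ha0, ha, div_mul_cancel₀ _ hρ.ne']
    exact hxx')
  refine ⟨(1 + a)⁻¹ • x' + (a / (1 + a)) • (z + a⁻¹ • (x - x')), ?_, ?_⟩
  · apply hcv' hx' hmem (by positivity) (by positivity)
    field_simp
  · simp only [hom]
    rw [smul_sub, smul_add, smul_smul, smul_smul, smul_add, smul_smul, mul_inv_cancel₀ h1a, one_smul,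
      mul_div_cancel₀ _ h1a, mul_inv_cancel₀ ha0.ne', one_smul, add_smul, one_smul]
    abel

end Vale.Agent.Lib.P243
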