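import Vale.Agent.Lib.P243.Wedge

open MeasureTheory Set Module Metric
open scoped ENNReal Pointwise NNReal Topology

namespace Vale.Agent.Lib.P243

lemma poly_limit {V A m σ : ℝ} (h : ∀ t : ℝ, 0 < t → t < 1 →
    (1 - t) ^ 3 * V + t * (1 - t) ^ 2 * A ≤ V - (1 - (1 - t * σ) ^ 3) * m) :
    A ≤ 3 * V - 3 * σ * m := by
  by_contra hcon
  push Not at hcon
  set D := A - (3 * V - 3 * σ * m) with hD
  have hD0 : 0 < D := by linarith
  set x := 3 * V - 2 * A - 3 * m * σ ^ 2 with hx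
  set y := -V + A + m * σ ^ 3 with hy
  set E := |x| + |y| with hE
  have hE0 : 0 ≤ E := by positivity
  set t := min (1 / 2) (D / (2 * (E + 1))) with ht
  have ht0 : 0 < t := lt_min (by norm_num) (by positivity)
  have ht1 : t < 1 := (min_le_left _ _).trans_lt (by norm_num)
  have htE : t * E ≤ D / 2 := by
    have h1 : t ≤ D / (2 * (E + 1)) := min_le_right _ _
    calc t * E ≤ D / (2 * (E + 1)) * E := by gcongr
      _ ≤ D / (2 * (E + 1)) * (E + 1) := by gcongr; linarith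
      _ = D / 2 := by field_simp
  have h2 := h t ht0 ht1
  have h3 : D + t * x + t ^ 2 * y ≤ 0 := by
    have h4 : t * (D + t * x + t ^ 2 * y) ≤ 0 := by
      rw [hD, hx, hy]
      nlinarith
    by_contra h5
    push Not at h5
    have := mul_pos ht0 h5
    linarith
  have h5 : -(t * |x|) ≤ t * x := by
    have := neg_abs_le x
    nlinarith
  have h6 : -(t * |y|) ≤ t ^ 2 * y := by
    have h7 := neg_abs_le y
    have h8 : t ^ 2 * |y| ≤ t * |y| := by
      have : t ^ 2 ≤ t := by nlinarith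
      exact mul_le_mul_of_nonneg_right this (abs_nonneg y)
    nlinarith [mul_le_mul_of_nonneg_left h7 (sq_nonneg t)]
  have h9 : t * E = t * |x| + t * |y| := by rw [hE]; ring
  linarith

lemma fiber_point {T : E3 ≃L[ℝ] E2 × ℝ} (y : E2) {a b s : ℝ} (hab : a < b) :
    T.symm (y, s) = (1 - (s - a) / (b - a)) • T.symm (y, a) +
      ((s - a) / (b - a)) • T.symm (y, b) := by
  have hba : b - a ≠ 0 := by linarith
  rw [← map_smul, ← map_smul, ← map_add]
  congr 1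
  ext
  · simp only [Prod.smul_mk, Prod.mk_add_mk, PiLp.add_apply, PiLp.smul_apply, smul_eq_mul]
    ring
  · simp only [Prod.smul_mk, Prod.mk_add_mk, smul_eq_mul]
    field_simp
    ring

lemma pigeon {p q : Fin 3 → Prop} (h : ∀ i, p i ∨ q i) :
    (∃ i j, i ≠ j ∧ p i ∧ p j) ∨ (∃ i j, i ≠ j ∧ q i ∧ q j) := by
  rcases h 0 with h0 | h0 <;> rcases h 1 with h1 | h1 <;> rcases h 2 with h2 | h2
  · exact Or.inl ⟨0, 1, by decide, h0, h1⟩
  · exact Or.inl ⟨0, 1, by decide, h0, h1⟩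
  · exact Or.inl ⟨0, 2, by decide, h0, h2⟩
  · exact Or.inr ⟨1, 2, by decide, h1, h2⟩
  · exact Or.inl ⟨1, 2, by decide, h1, h2⟩
  · exact Or.inr ⟨0, 2, by decide, h0, h2⟩
  · exact Or.inr ⟨0, 1, by decide, h0, h1⟩
  · exact Or.inr ⟨0, 1, by decide, h0, h1⟩

/-- Near the left end of a chord. -/
lemma near_left {K : Set E3} {w : Fin 3 → E3} {τ θ M1 σ : ℝ}
    (hle : ∀ i, ∀ x ∈ K, inner ℝ (w i) x ≤ 1) (hbdf : ∀ i, ∀ x ∈ K, 1 - inner ℝ (w i) x ≤ M1)
    (hθM : θ * M1 = τ / 2) (hσ : σ = τ / 4) (hM10 : 0 < M1)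
    {T : E3 ≃L[ℝ] E2 × ℝ} {y : E2} {a b : ℝ} (hab : a ≤ b)
    (hfib : Prod.mk y ⁻¹' (T '' K) = Icc a b) (hqK : T.symm (y, b) ∈ K) (hpK : T.symm (y, a) ∈ K)
    {i j : Fin 3} (hij : i ≠ j)
    (hi : 1 - inner ℝ (w i) (T.symm (y, a)) < 2 * σ)
    (hj : 1 - inner ℝ (w j) (T.symm (y, a)) < 2 * σ) :
    Prod.mk y ⁻¹' (T '' (K \ wedgeSet K w τ)) ⊆ Icc (a + θ * (b - a)) b := by
  intro s hs
  have hsab : s ∈ Icc a b := by
    rw [← hfib]
    exact preimage_mono (image_mono sdiff_subset) hs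
  refine ⟨?_, hsab.2⟩
  by_contra hcon
  push Not at hcon
  have hab' : a < b := by
    rcases eq_or_lt_of_le hab with h | h
    · rw [h, sub_self, mul_zero, add_zero] at hcon
      have := hsab.1
      linarith
    · exact h
  obtain ⟨x, ⟨hxK, hxW⟩, hxe⟩ := hs
  apply hxW
  have hxs : x = T.symm (y, s) := by rw [← hxe, T.symm_apply_apply]
  have hfp := fiber_point (T := T) y (s := s) hab'
  set l := (s - a) / (b - a) with hl
  have hba : 0 < b - a := by linarith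
  have hl0 : 0 ≤ l := div_nonneg (by linarith [hsab.1]) hba.le
  have hlθ : l < θ := by rw [hl, div_lt_iff₀ hba]; linarith
  have hin : ∀ k, 1 - inner ℝ (w k) (T.symm (y, a)) < 2 * σ → 1 - inner ℝ (w k) x < τ := by
    intro k hk
    rw [hxs, hfp, inner_add_right, inner_smul_right, inner_smul_right]
    have h1 := hbdf k _ hqK
    have h2 : l * (1 - inner ℝ (w k) (T.symm (y, b))) ≤ l * M1 := by gcongr
    have h3 : l * M1 ≤ θ * M1 := by gcongr
    have h4 : 0 ≤ 1 - inner ℝ (w k) (T.symm (y, a)) := by linarith [hle k _ hpK]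
    have h5 : (1 - l) * (1 - inner ℝ (w k) (T.symm (y, a))) ≤
        1 * (1 - inner ℝ (w k) (T.symm (y, a))) := by
      gcongr
      linarith
    calc 1 - ((1 - l) * inner ℝ (w k) (T.symm (y, a)) + l * inner ℝ (w k) (T.symm (y, b)))
        = (1 - l) * (1 - inner ℝ (w k) (T.symm (y, a))) +
          l * (1 - inner ℝ (w k) (T.symm (y, b))) := by ring
      _ < τ := by rw [hσ] at hk; linarith
  exact ⟨hxK, i, j, hij, hin i hi, hin j hj⟩

/-- Near the right end of a chord. -/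
lemma near_right {K : Set E3} {w : Fin 3 → E3} {τ θ M1 σ : ℝ}
    (hle : ∀ i, ∀ x ∈ K, inner ℝ (w i) x ≤ 1) (hbdf : ∀ i, ∀ x ∈ K, 1 - inner ℝ (w i) x ≤ M1)
    (hθM : θ * M1 = τ / 2) (hσ : σ = τ / 4) (hM10 : 0 < M1)
    {T : E3 ≃L[ℝ] E2 × ℝ} {y : E2} {a b : ℝ} (hab : a ≤ b)
    (hfib : Prod.mk y ⁻¹' (T '' K) = Icc a b) (hqK : T.symm (y, b) ∈ K) (hpK : T.symm (y, a) ∈ K)
    {i j : Fin 3} (hij : i ≠ j)
    (hi : 1 - inner ℝ (w i) (T.symm (y, b)) < 2 * σ)
    (hj : 1 - inner ℝ (w j) (T.symm (y, b)) < 2 * σ) :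
    Prod.mk y ⁻¹' (T '' (K \ wedgeSet K w τ)) ⊆ Icc a (b - θ * (b - a)) := by
  intro s hs
  have hsab : s ∈ Icc a b := by
    rw [← hfib]
    exact preimage_mono (image_mono sdiff_subset) hs
  refine ⟨hsab.1, ?_⟩
  by_contra hcon
  push Not at hcon
  have hab' : a < b := by
    rcases eq_or_lt_of_le hab with h | h
    · rw [h, sub_self, mul_zero, sub_zero] at hcon
      have := hsab.2
      linarith
    · exact h
  obtain ⟨x, ⟨hxK, hxW⟩, hxe⟩ := hs
  apply hxW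
  have hxs : x = T.symm (y, s) := by rw [← hxe, T.symm_apply_apply]
  have hfp := fiber_point (T := T) y (s := s) hab'
  set l := (s - a) / (b - a) with hl
  have hba : 0 < b - a := by linarith
  have hl1 : l ≤ 1 := (div_le_one hba).2 (by linarith [hsab.2])
  have hlθ : 1 - θ < l := by rw [hl, lt_div_iff₀ hba]; linarith
  have hin : ∀ k, 1 - inner ℝ (w k) (T.symm (y, b)) < 2 * σ → 1 - inner ℝ (w k) x < τ := by
    intro k hk
    rw [hxs, hfp, inner_add_right, inner_smul_right, inner_smul_right]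
    have h1 := hbdf k _ hpK
    have h2 : (1 - l) * (1 - inner ℝ (w k) (T.symm (y, a))) ≤ (1 - l) * M1 := by
      have : 0 ≤ 1 - l := by linarith
      gcongr
    have h3 : (1 - l) * M1 ≤ θ * M1 := by
      have : 1 - l ≤ θ := by linarith
      gcongr
    have h4 : 0 ≤ 1 - inner ℝ (w k) (T.symm (y, b)) := by linarith [hle k _ hqK]
    have h5 : l * (1 - inner ℝ (w k) (T.symm (y, b))) ≤
        1 * (1 - inner ℝ (w k) (T.symm (y, b))) := by
      gcongr
    calc 1 - ((1 - l) * inner ℝ (w k) (T.symm (y, a)) + l * inner ℝ (w k) (T.symm (y, b)))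
        = (1 - l) * (1 - inner ℝ (w k) (T.symm (y, a))) +
          l * (1 - inner ℝ (w k) (T.symm (y, b))) := by ring
      _ < τ := by rw [hσ] at hk; linarith
  exact ⟨hxK, i, j, hij, hin i hi, hin j hj⟩

/-- Weighted chord inequality, with the constants as hypotheses. -/
theorem body_chord {K : Set E3} (hK : IsCompact K) (hcv : Convex ℝ K) {w : Fin 3 → E3}
    {τ θ M1 σ m κ : ℝ}
    (hle : ∀ i, ∀ x ∈ K, inner ℝ (w i) x ≤ 1) (hbdf : ∀ i, ∀ x ∈ K, 1 - inner ℝ (w i) x ≤ M1)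
    (hθM : θ * M1 = τ / 2) (hσ : σ = τ / 4) (hM10 : 0 < M1) (hσ0 : 0 < σ)
    (hθ0 : 0 < θ) (hθ1 : θ ≤ 1 / 2) (hκ0 : 0 < κ) (hκ1 : κ ≤ 1)
    (hκV : κ * volume.real K ≤ σ * m)
    (hm : ∀ i, ∀ p ∈ K, ∀ q ∈ K, 2 * σ ≤ 1 - inner ℝ (w i) p →
      2 * σ ≤ 1 - inner ℝ (w i) q → ∀ t, 0 < t → t < 1 →
        volume.real ((1 - t) • K + t • segment ℝ p q) ≤
          volume.real K - (1 - (1 - t * σ) ^ 3) * m)
    {P : E3 →ₗ[ℝ] E2} {T : E3 ≃L[ℝ] E2 × ℝ} {c : ℝ} (hc0 : 0 < c) (hTP : ∀ x, (T x).1 = P x)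
    (hvol : ∀ S : Set E3, volume S =
          ENNReal.ofReal c * ((volume : Measure E2).prod (volume : Measure ℝ)) (T '' S))
    {y : E2} {a b : ℝ} (hab : a ≤ b) (hfib : Prod.mk y ⁻¹' (T '' K) = Icc a b) :
    (1 - κ) * (c * (b - a) * volume.real (P '' K)) +
      κ * (c * (volume (Prod.mk y ⁻¹' (T '' (K \ wedgeSet K w τ)))).toReal *
        volume.real (P '' K)) ≤
      3 * (1 - κ * θ) * volume.real K := by
  obtain ⟨p, hp⟩ : ∃ p, p = T.symm (y, a) := ⟨_, rfl⟩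
  obtain ⟨q, hq⟩ : ∃ q, q = T.symm (y, b) := ⟨_, rfl⟩
  have hTp : T p = (y, a) := by rw [hp, T.apply_symm_apply]
  have hTq : T q = (y, b) := by rw [hq, T.apply_symm_apply]
  have hmem : ∀ s, s ∈ Icc a b ↔ T.symm (y, s) ∈ K := by
    intro s
    rw [← hfib]
    constructor
    · rintro ⟨x, hx, hxe⟩
      rw [← hxe, T.symm_apply_apply]
      exact hx
    · intro h
      exact ⟨_, h, T.apply_symm_apply _⟩
  have hpK : p ∈ K := by rw [hp]; exact (hmem a).1 ⟨le_rfl, hab⟩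
  have hqK : q ∈ K := by rw [hq]; exact (hmem b).1 ⟨hab, le_rfl⟩
  have hPpq : P p = P q := by rw [← hTP, ← hTP, hTp, hTq]
  obtain ⟨V, hV⟩ : ∃ V, V = volume.real K := ⟨_, rfl⟩
  obtain ⟨AP, hAP⟩ : ∃ AP, AP = volume.real (P '' K) := ⟨_, rfl⟩
  have hAP0 : 0 ≤ AP := by rw [hAP]; exact measureReal_nonneg
  have hV0 : 0 ≤ V := by rw [hV]; exact measureReal_nonneg
  rw [← hAP, ← hV]
  rw [← hV] at hκV
  obtain ⟨A, hA⟩ : ∃ A, A = c * (b - a) * AP := ⟨_, rfl⟩
  have hba0 : 0 ≤ b - a := by linarith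
  have hA0 : 0 ≤ A := by rw [hA]; positivity
  have hchord : ∀ t, 0 < t → t < 1 → (1 - t) ^ 3 * V + t * (1 - t) ^ 2 * A ≤
      volume.real ((1 - t) • K + t • segment ℝ p q) := by
    intro t ht0 ht1
    have := chord_volume hc0 hTP hvol hK hcv hPpq (by rw [hTp, hTq]; exact hab) ht0 ht1
    rw [hTp, hTq, ← hAP, ← hV] at this
    simp only at this
    calc _ = (1 - t) ^ 3 * V + t * (1 - t) ^ 2 * (c * (b - a)) * AP := by rw [hA]; ring
      _ ≤ _ := this
  have hA3 : A ≤ 3 * V := by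
    have := poly_limit (V := V) (A := A) (m := 0) (σ := 1) fun t ht0 ht1 => by
      rw [mul_zero, sub_zero]
      refine (hchord t ht0 ht1).trans ?_
      rw [hV]
      apply measureReal_mono _ hK.measure_lt_top.ne
      rintro _ ⟨_, ⟨k, hk, rfl⟩, _, ⟨z, hz, rfl⟩, rfl⟩
      exact hcv hk (hcv.segment_subset hpK hqK hz) (by linarith) ht0.le (by ring)
    linarith
  have hsubfib : Prod.mk y ⁻¹' (T '' (K \ wedgeSet K w τ)) ⊆ Icc a b := by
    rw [← hfib]
    exact preimage_mono (image_mono sdiff_subset)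
  obtain ⟨ℓ', hℓ'⟩ : ∃ ℓ', ℓ' =
    (volume (Prod.mk y ⁻¹' (T '' (K \ wedgeSet K w τ)))).toReal := ⟨_, rfl⟩
  rw [← hℓ', ← hA]
  have hℓ'le : ∀ u v : ℝ, u ≤ v → Prod.mk y ⁻¹' (T '' (K \ wedgeSet K w τ)) ⊆ Icc u v →
      ℓ' ≤ v - u := by
    intro u v huv hsub
    rw [hℓ']
    apply ENNReal.toReal_le_of_le_ofReal (by linarith)
    rw [← Real.volume_Icc]
    exact measure_mono hsub
  by_cases hex : ∃ i, 2 * σ ≤ 1 - inner ℝ (w i) p ∧ 2 * σ ≤ 1 - inner ℝ (w i) q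
  · obtain ⟨i, hi1, hi2⟩ := hex
    have hAs : A ≤ 3 * V - 3 * σ * m := poly_limit fun t ht0 ht1 => by
      rw [hV]
      rw [hV] at hchord
      exact (hchord t ht0 ht1).trans (hm i p hpK q hqK hi1 hi2 t ht0 ht1)
    have hA'A : c * ℓ' * AP ≤ A := by
      rw [hA]
      have := hℓ'le a b hab hsubfib
      gcongr
    have h1 : (1 - κ) * A + κ * (c * ℓ' * AP) ≤ A := by
      have : κ * (c * ℓ' * AP) ≤ κ * A := by gcongr
      linarith
    have h3 : κ * θ * V ≤ κ * V := by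
      have : κ * θ ≤ κ := by nlinarith
      gcongr
    calc _ ≤ A := h1
      _ ≤ 3 * V - 3 * σ * m := hAs
      _ ≤ 3 * (1 - κ * θ) * V := by linarith
  · push Not at hex
    have hex' : ∀ i, 1 - inner ℝ (w i) p < 2 * σ ∨ 1 - inner ℝ (w i) q < 2 * σ := by
      intro i
      rcases lt_or_ge (1 - inner ℝ (w i) p) (2 * σ) with h | h
      · exact Or.inl h
      · exact Or.inr (hex i h)
    rw [hp] at hpK
    rw [hq] at hqK
    rw [hp, hq] at hex'
    have hlen : ℓ' ≤ (1 - θ) * (b - a) := by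
      rcases pigeon hex' with ⟨i, j, hij, hi, hj⟩ | ⟨i, j, hij, hi, hj⟩
      · have hsub := near_left hle hbdf hθM hσ hM10 hab hfib hqK hpK hij hi hj
        calc ℓ' ≤ b - (a + θ * (b - a)) := hℓ'le _ _ (by nlinarith) hsub
          _ = (1 - θ) * (b - a) := by ring
      · have hsub := near_right hle hbdf hθM hσ hM10 hab hfib hqK hpK hij hi hj
        calc ℓ' ≤ (b - θ * (b - a)) - a := hℓ'le _ _ (by nlinarith) hsub
          _ = (1 - θ) * (b - a) := by ring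
    have hA'A : c * ℓ' * AP ≤ (1 - θ) * A := by
      calc c * ℓ' * AP ≤ c * ((1 - θ) * (b - a)) * AP := by gcongr
        _ = (1 - θ) * A := by rw [hA]; ring
    have h1θ : 0 ≤ 1 - κ * θ := by nlinarith
    calc (1 - κ) * A + κ * (c * ℓ' * AP) ≤ (1 - κ) * A + κ * ((1 - θ) * A) := by gcongr
      _ = (1 - κ * θ) * A := by ring
      _ ≤ (1 - κ * θ) * (3 * V) := by gcongr
      _ = 3 * (1 - κ * θ) * V := by ring

/-- Weighted chord inequality for one body. -/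
theorem body_bound {K : Set E3} (hK : IsCompact K) (hcv : Convex ℝ K) {r₀ : ℝ} (hr₀ : 0 < r₀)
    (hball : closedBall 0 r₀ ⊆ K) :
    ∃ (W : Set E3) (κ θ : ℝ), MeasurableSet W ∧ W ⊆ K ∧ 0 < κ ∧ κ ≤ 1 ∧ 0 < θ ∧ θ ≤ 1 / 2 ∧
      volume.real W ≤ θ / 2 * volume.real K ∧
      ∀ (P : E3 →ₗ[ℝ] E2) (T : E3 ≃L[ℝ] E2 × ℝ) (c : ℝ), 0 < c → (∀ x, (T x).1 = P x) →
        (∀ S : Set E3, volume S =
          ENNReal.ofReal c * ((volume : Measure E2).prod (volume : Measure ℝ)) (T '' S)) →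
        ∀ (y : E2) (a b : ℝ), a ≤ b → Prod.mk y ⁻¹' (T '' K) = Icc a b →
          (1 - κ) * (c * (b - a) * volume.real (P '' K)) +
            κ * (c * (volume (Prod.mk y ⁻¹' (T '' (K \ W)))).toReal * volume.real (P '' K)) ≤
          3 * (1 - κ * θ) * volume.real K := by
  obtain ⟨w, hwli, hws⟩ := three_smooth hK hcv hr₀ hball
  choose x₁ hsm using hws
  obtain ⟨R, hR⟩ := hK.isBounded.exists_norm_le
  have hR0 : 0 ≤ R := (norm_nonneg _).trans (hR 0 (hball (mem_closedBall_self hr₀.le)))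
  set M := r₀⁻¹ * R + 1 with hM
  have hM1 : 1 ≤ M := by
    have : 0 ≤ r₀⁻¹ * R := by positivity
    linarith
  have hbd : ∀ i, ∀ x ∈ K, |inner ℝ (w i) x| ≤ M := by
    intro i x hx
    calc |inner ℝ (w i) x| ≤ ‖w i‖ * ‖x‖ := abs_real_inner_le_norm _ _
      _ ≤ r₀⁻¹ * R := by
        have h1 := polarSet_norm_le hr₀ hball (hsm i).2.1
        have h2 := hR x hx
        gcongr
      _ ≤ M := by rw [hM]; linarith
  have hle : ∀ i, ∀ x ∈ K, inner ℝ (w i) x ≤ 1 := fun i x hx => (hsm i).2.1 x hx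
  obtain ⟨C, hC0, hC⟩ := wedgeSet_volume hwli (by linarith : 0 < M) hbd hle
  set V := volume.real K with hV
  have hVpos : 0 < V := by
    rw [hV, Measure.real]
    apply ENNReal.toReal_pos _ hK.measure_lt_top.ne
    exact ((measure_ball_pos volume (0 : E3) hr₀).trans_le
      (measure_mono (ball_subset_closedBall.trans hball))).ne'
  set M1 := M + 1 with hM1'
  set τ := min 1 (V / (4 * M1 * C)) with hτ
  have hτ0 : 0 < τ := lt_min one_pos (by positivity)
  have hτ1 : τ ≤ 1 := min_le_left _ _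
  have hτC : C * τ ^ 2 ≤ τ / (4 * M1) * V := by
    have h1 : τ ≤ V / (4 * M1 * C) := min_le_right _ _
    calc C * τ ^ 2 = C * τ * τ := by ring
      _ ≤ C * τ * (V / (4 * M1 * C)) := by gcongr
      _ = τ / (4 * M1) * V := by field_simp
  set σ := τ / 4 with hσ
  have hσ0 : 0 < σ := by positivity
  have hσ1 : σ ≤ 1 := by rw [hσ]; linarith
  have hshell : ∀ i, ∃ m > 0, ∀ p ∈ K, ∀ q ∈ K, 2 * σ ≤ 1 - inner ℝ (w i) p →
      2 * σ ≤ 1 - inner ℝ (w i) q → ∀ t, 0 < t → t < 1 →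
        volume.real ((1 - t) • K + t • segment ℝ p q) ≤
          volume.real K - (1 - (1 - t * σ) ^ 3) * m := fun i =>
    shell hK hcv hr₀ hball (hsm i) hσ0 hσ1
  choose m hm0 hm using hshell
  set m' := min (m 0) (min (m 1) (m 2)) with hm'
  have hm'0 : 0 < m' := lt_min (hm0 0) (lt_min (hm0 1) (hm0 2))
  have hm'i : ∀ i, m' ≤ m i := by
    intro i
    fin_cases i
    · exact min_le_left _ _
    · exact (min_le_right _ _).trans (min_le_left _ _)
    · exact (min_le_right _ _).trans (min_le_right _ _)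
  set θ := τ / (2 * M1) with hθ
  have hM1pos : 0 < M1 := by linarith
  have hθ0 : 0 < θ := by positivity
  have hθ1 : θ ≤ 1 / 2 := by
    rw [hθ, div_le_div_iff₀ (by positivity) (by norm_num)]
    nlinarith
  set κ := min 1 (σ * m' / V) with hκ
  have hκ0 : 0 < κ := lt_min one_pos (by positivity)
  have hκ1 : κ ≤ 1 := min_le_left _ _
  have hκV : κ * V ≤ σ * m' := by
    have : κ ≤ σ * m' / V := min_le_right _ _
    rwa [le_div_iff₀ hVpos] at this
  refine ⟨wedgeSet K w τ, κ, θ, wedgeSet_measurable hK.isClosed w τ, fun x hx => hx.1, hκ0, hκ1,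
    hθ0, hθ1, ?_, ?_⟩
  · have h1 := hC τ hτ0
    have h2 : volume.real (wedgeSet K w τ) ≤ C * τ ^ 2 := by
      rw [Measure.real]
      exact ENNReal.toReal_le_of_le_ofReal (by positivity) h1
    calc volume.real (wedgeSet K w τ) ≤ C * τ ^ 2 := h2
      _ ≤ τ / (4 * M1) * V := hτC
      _ = θ / 2 * V := by rw [hθ]; field_simp; ring
  · intro P T c hc0 hTP hvol y a b hab hfib
    have hbdf : ∀ i, ∀ x ∈ K, 1 - inner ℝ (w i) x ≤ M1 := by
      intro i x hx
      have := (abs_le.1 (hbd i x hx)).1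
      rw [hM1']
      linarith
    have hθM : θ * M1 = τ / 2 := by rw [hθ]; field_simp
    refine body_chord hK hcv hle hbdf hθM hσ hM1pos hσ0 hθ0 hθ1 hκ0 hκ1 hκV ?_ hc0 hTP hvol hab hfib
    intro i p hp q hq h1 h2 t ht0 ht1
    refine (hm i p hp q hq h1 h2 t ht0 ht1).trans ?_
    have h3 : 0 ≤ 1 - (1 - t * σ) ^ 3 := by
      have h4 : 0 ≤ 1 - t * σ := by nlinarith
      have h5 : 1 - t * σ ≤ 1 := by nlinarith
      have := pow_le_one₀ h4 h5 (n := 3)
      linarith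
    have := mul_le_mul_of_nonneg_left (hm'i i) h3
    linarith

end Vale.Agent.Lib.P243
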