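import Vale.Agent.Lib.P243.Body

open MeasureTheory Set Module Metric
open scoped ENNReal Pointwise NNReal Topology

namespace Vale.Agent.Lib.P243

lemma volume_inter_cyl {P : E3 →ₗ[ℝ] E2} {T : E3 ≃L[ℝ] E2 × ℝ} {c : ℝ}
    (hTP : ∀ x, (T x).1 = P x)
    (hvol : ∀ S : Set E3, volume S =
          ENNReal.ofReal c * ((volume : Measure E2).prod (volume : Measure ℝ)) (T '' S))
    {S : Set E3} (hS : MeasurableSet S) {B : Set E2} (hB : MeasurableSet B) :
    volume (S ∩ P ⁻¹' B) =
      ENNReal.ofReal c * ∫⁻ y in B, volume (Prod.mk y ⁻¹' (T '' S)) := by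
  have hTS : MeasurableSet (T '' S) :=
    T.toHomeomorph.measurableEmbedding.measurableSet_image.2 hS
  have himg : T '' (S ∩ P ⁻¹' B) = T '' S ∩ Prod.fst ⁻¹' B := by
    ext z
    constructor
    · rintro ⟨x, ⟨hxS, hxB⟩, rfl⟩
      refine ⟨⟨x, hxS, rfl⟩, ?_⟩
      rw [mem_preimage, hTP]
      exact hxB
    · rintro ⟨⟨x, hxS, rfl⟩, hxB⟩
      rw [mem_preimage, hTP] at hxB
      exact ⟨x, ⟨hxS, hxB⟩, rfl⟩
  rw [hvol, himg, Measure.prod_apply (hTS.inter (measurable_fst hB)),
    ← lintegral_indicator hB]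
  congr 1
  apply lintegral_congr
  intro y
  by_cases hy : y ∈ B
  · rw [indicator_of_mem hy]
    congr 1
    ext s
    simp [hy]
  · rw [indicator_of_notMem hy]
    have : Prod.mk y ⁻¹' (T '' S ∩ Prod.fst ⁻¹' B) = ∅ := by
      ext s
      simp [hy]
    rw [this, measure_empty]

/-- One direction of the weighted bound. -/
lemma one_dir {K W : Set E3} (hK : IsCompact K) (hcv : Convex ℝ K) {κ θ : ℝ}
    (hWm : MeasurableSet W) (hκ0 : 0 < κ) (hκ1 : κ ≤ 1)
    (hbd : ∀ (P : E3 →ₗ[ℝ] E2) (T : E3 ≃L[ℝ] E2 × ℝ) (c : ℝ), 0 < c → (∀ x, (T x).1 = P x) →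
        (∀ S : Set E3, volume S =
          ENNReal.ofReal c * ((volume : Measure E2).prod (volume : Measure ℝ)) (T '' S)) →
        ∀ (y : E2) (a b : ℝ), a ≤ b → Prod.mk y ⁻¹' (T '' K) = Icc a b →
          (1 - κ) * (c * (b - a) * volume.real (P '' K)) +
            κ * (c * (volume (Prod.mk y ⁻¹' (T '' (K \ W)))).toReal * volume.real (P '' K)) ≤
          3 * (1 - κ * θ) * volume.real K)
    (P : E3 →ₗ[ℝ] E2) (hP : Function.Surjective P) {B : Set E2} (hB : MeasurableSet B) :
    (ENNReal.ofReal (1 - κ) * volume (K ∩ P ⁻¹' B) +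
      ENNReal.ofReal κ * volume ((K \ W) ∩ P ⁻¹' B)) * volume (P '' K) ≤
      ENNReal.ofReal (3 * (1 - κ * θ) * volume.real K) * volume B := by
  obtain ⟨T, c, hc0, hTP, hvol⟩ := exists_split P hP
  have hKm : MeasurableSet K := hK.isClosed.measurableSet
  have hTK : MeasurableSet (T '' K) := (hK.image T.continuous).isClosed.measurableSet
  have hTW : MeasurableSet (T '' (K \ W)) :=
    T.toHomeomorph.measurableEmbedding.measurableSet_image.2 (hKm.diff hWm)
  have hPKc : IsCompact (P '' K) := hK.image (LinearMap.continuous_of_finiteDimensional P)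
  have hPKfin : volume (P '' K) ≠ ⊤ := hPKc.measure_lt_top.ne
  rw [volume_inter_cyl hTP hvol hKm hB, volume_inter_cyl hTP hvol (hKm.diff hWm) hB]
  have hm1 : Measurable fun y => volume (Prod.mk y ⁻¹' (T '' K)) :=
    measurable_measure_prodMk_left hTK
  have hm2 : Measurable fun y => volume (Prod.mk y ⁻¹' (T '' (K \ W))) :=
    measurable_measure_prodMk_left hTW
  have hstep : (ENNReal.ofReal (1 - κ) * (ENNReal.ofReal c *
        ∫⁻ y in B, volume (Prod.mk y ⁻¹' (T '' K))) +
      ENNReal.ofReal κ * (ENNReal.ofReal c *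
        ∫⁻ y in B, volume (Prod.mk y ⁻¹' (T '' (K \ W))))) * volume (P '' K) =
      ∫⁻ y in B, (ENNReal.ofReal (1 - κ) * (ENNReal.ofReal c *
          volume (Prod.mk y ⁻¹' (T '' K))) + ENNReal.ofReal κ * (ENNReal.ofReal c *
          volume (Prod.mk y ⁻¹' (T '' (K \ W))))) * volume (P '' K) := by
    rw [lintegral_mul_const _ (by fun_prop), lintegral_add_left (by fun_prop),
      lintegral_const_mul _ (by fun_prop), lintegral_const_mul _ (by fun_prop),
      lintegral_const_mul _ (by fun_prop), lintegral_const_mul _ (by fun_prop)]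
  rw [hstep, ← setLIntegral_const]
  apply lintegral_mono
  intro y
  simp only
  by_cases hy : y ∈ P '' K
  · have hy' : y ∈ Prod.fst '' (T '' K) := by
      obtain ⟨x, hx, rfl⟩ := hy
      exact ⟨T x, ⟨x, hx, rfl⟩, hTP x⟩
    obtain ⟨a, b, hab, hf⟩ := fiber_eq_Icc (hK.image T.continuous)
      (hcv.linear_image (T : E3 →ₗ[ℝ] E2 × ℝ)) hy'
    have hkey := hbd P T c hc0 hTP hvol y a b hab hf
    have hf' : Prod.mk y ⁻¹' (T '' K) = Icc a b := hf
    have hsub : Prod.mk y ⁻¹' (T '' (K \ W)) ⊆ Icc a b := by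
      rw [← hf']
      exact preimage_mono (image_mono sdiff_subset)
    have hfin : volume (Prod.mk y ⁻¹' (T '' (K \ W))) ≠ ⊤ :=
      ((measure_mono hsub).trans_lt (by rw [Real.volume_Icc]; exact ENNReal.ofReal_lt_top)).ne
    rw [hf', Real.volume_Icc]
    have hba : 0 ≤ b - a := by linarith
    have h1κ : 0 ≤ 1 - κ := by linarith
    rw [← ENNReal.ofReal_toReal hfin, ← ENNReal.ofReal_toReal hPKfin,
      ← ENNReal.ofReal_mul hc0.le, ← ENNReal.ofReal_mul hc0.le, ← ENNReal.ofReal_mul h1κ,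
      ← ENNReal.ofReal_mul hκ0.le, ← ENNReal.ofReal_add (by positivity) (by positivity),
      ← ENNReal.ofReal_mul (by positivity)]
    apply ENNReal.ofReal_le_ofReal
    simp only [Measure.real] at hkey ⊢
    linarith
  · have hy' : y ∉ Prod.fst '' (T '' K) := by
      rintro ⟨_, ⟨x, hx, rfl⟩, rfl⟩
      exact hy ⟨x, hx, (hTP x).symm⟩
    have h1 : Prod.mk y ⁻¹' (T '' K) = ∅ := fiber_empty hy'
    have h2 : Prod.mk y ⁻¹' (T '' (K \ W)) = ∅ := by
      apply subset_empty_iff.1
      rw [← h1]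
      exact preimage_mono (image_mono sdiff_subset)
    rw [h1, h2]
    simp

/-- The covering property with constant `1/3 + ε`. -/
def Good (K : Set E3) (ε : ℝ) : Prop :=
  ∀ (n : ℕ) (P : Fin n → E3 →ₗ[ℝ] E2) (B : Fin n → Set E2),
    (∀ i, Function.Surjective (P i)) → (∀ i, MeasurableSet (B i)) →
    K ⊆ ⋃ i, P i ⁻¹' B i →
    ENNReal.ofReal (1 / 3 + ε) ≤ ∑ i, volume (B i) / volume (P i '' K)

lemma image_volume_pos {K : Set E3} (hne : (interior K).Nonempty) {P : E3 →ₗ[ℝ] E2}
    (hP : Function.Surjective P) : volume (P '' K) ≠ 0 := by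
  have hopen : IsOpenMap P :=
    (LinearMap.toContinuousLinearMap P).isOpenMap hP
  have h1 : IsOpen (P '' interior K) := hopen _ isOpen_interior
  have h2 : 0 < volume (P '' interior K) := h1.measure_pos volume (hne.image P)
  exact (h2.trans_le (measure_mono (image_mono interior_subset))).ne'

theorem good_of_ball {K : Set E3} (hK : IsCompact K) (hcv : Convex ℝ K) {r₀ : ℝ} (hr₀ : 0 < r₀)
    (hball : closedBall 0 r₀ ⊆ K) : ∃ ε > 0, Good K ε := by
  obtain ⟨W, κ, θ, hWm, hWK, hκ0, hκ1, hθ0, hθ1, hWvol, hbd⟩ := body_bound hK hcv hr₀ hball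
  have hκθ : κ * θ ≤ 1 / 2 := by nlinarith
  have hκθ0 : 0 < κ * θ := by positivity
  have hne : (interior K).Nonempty := by
    refine ⟨0, ?_⟩
    rw [mem_interior_iff_mem_nhds]
    exact Filter.mem_of_superset (closedBall_mem_nhds 0 hr₀) hball
  have hVpos : 0 < volume.real K := by
    rw [Measure.real]
    apply ENNReal.toReal_pos _ hK.measure_lt_top.ne
    exact ((measure_ball_pos volume (0 : E3) hr₀).trans_le
      (measure_mono (ball_subset_closedBall.trans hball))).ne'
  refine ⟨κ * θ / (6 * (1 - κ * θ)), div_pos hκθ0 (by linarith), ?_⟩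
  intro n P B hP hB hcov
  have hKm : MeasurableSet K := hK.isClosed.measurableSet
  have hPfin : ∀ i, volume (P i '' K) ≠ ⊤ := fun i =>
    (hK.image (LinearMap.continuous_of_finiteDimensional (P i))).measure_lt_top.ne
  have hPpos : ∀ i, volume (P i '' K) ≠ 0 := fun i => image_volume_pos hne (hP i)
  set Λ := 3 * (1 - κ * θ) * volume.real K with hΛ
  have hΛ0 : 0 < Λ := by
    have : 0 < 1 - κ * θ := by linarith
    positivity
  have hdir : ∀ i, ENNReal.ofReal (1 - κ) * volume (K ∩ P i ⁻¹' B i) +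
      ENNReal.ofReal κ * volume ((K \ W) ∩ P i ⁻¹' B i) ≤
      ENNReal.ofReal Λ * (volume (B i) / volume (P i '' K)) := by
    intro i
    have := one_dir hK hcv hWm hκ0 hκ1 hbd (P i) (hP i) (hB i)
    rw [← mul_div_assoc, ENNReal.le_div_iff_mul_le (Or.inl (hPpos i)) (Or.inl (hPfin i))]
    exact this
  have hsum1 : volume K ≤ ∑ i, volume (K ∩ P i ⁻¹' B i) := by
    calc volume K ≤ volume (⋃ i, K ∩ P i ⁻¹' B i) := by
          apply measure_mono
          rw [← inter_iUnion]
          exact subset_inter Subset.rfl hcov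
      _ ≤ _ := measure_iUnion_fintype_le _ _
  have hsum2 : volume (K \ W) ≤ ∑ i, volume ((K \ W) ∩ P i ⁻¹' B i) := by
    calc volume (K \ W) ≤ volume (⋃ i, (K \ W) ∩ P i ⁻¹' B i) := by
          apply measure_mono
          rw [← inter_iUnion]
          exact subset_inter Subset.rfl (sdiff_subset.trans hcov)
      _ ≤ _ := measure_iUnion_fintype_le _ _
  have hmass : ENNReal.ofReal ((1 - κ * θ / 2) * volume.real K) ≤
      ENNReal.ofReal (1 - κ) * volume K + ENNReal.ofReal κ * volume (K \ W) := by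
    have hKfin : volume K ≠ ⊤ := hK.measure_lt_top.ne
    have hKWfin : volume (K \ W) ≠ ⊤ := ((measure_mono sdiff_subset).trans_lt hK.measure_lt_top).ne
    rw [← ENNReal.ofReal_toReal hKfin, ← ENNReal.ofReal_toReal hKWfin,
      ← ENNReal.ofReal_mul (by linarith), ← ENNReal.ofReal_mul hκ0.le,
      ← ENNReal.ofReal_add (mul_nonneg (by linarith) ENNReal.toReal_nonneg) (by positivity)]
    apply ENNReal.ofReal_le_ofReal
    have h1 : (volume (K \ W)).toReal = volume.real K - volume.real W :=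
      measureReal_sdiff hWK hWm hKfin
    rw [h1]
    simp only [Measure.real] at hWvol ⊢
    nlinarith
  have hfinal : ENNReal.ofReal ((1 - κ * θ / 2) * volume.real K) ≤
      ENNReal.ofReal Λ * ∑ i, volume (B i) / volume (P i '' K) := by
    calc _ ≤ ENNReal.ofReal (1 - κ) * volume K + ENNReal.ofReal κ * volume (K \ W) := hmass
      _ ≤ ENNReal.ofReal (1 - κ) * ∑ i, volume (K ∩ P i ⁻¹' B i) +
          ENNReal.ofReal κ * ∑ i, volume ((K \ W) ∩ P i ⁻¹' B i) := by gcongr
      _ = ∑ i, (ENNReal.ofReal (1 - κ) * volume (K ∩ P i ⁻¹' B i) +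
          ENNReal.ofReal κ * volume ((K \ W) ∩ P i ⁻¹' B i)) := by
        rw [Finset.mul_sum, Finset.mul_sum, Finset.sum_add_distrib]
      _ ≤ ∑ i, ENNReal.ofReal Λ * (volume (B i) / volume (P i '' K)) :=
        Finset.sum_le_sum fun i _ => hdir i
      _ = _ := by rw [Finset.mul_sum]
  have hΛne : ENNReal.ofReal Λ ≠ 0 := by
    rw [Ne, ENNReal.ofReal_eq_zero]; linarith
  have h2 : ENNReal.ofReal (1 / 3 + κ * θ / (6 * (1 - κ * θ))) =
      ENNReal.ofReal ((1 - κ * θ / 2) * volume.real K) / ENNReal.ofReal Λ := by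
    rw [← ENNReal.ofReal_div_of_pos hΛ0]
    congr 1
    have h3 : 1 - κ * θ ≠ 0 := by linarith
    rw [hΛ]
    field_simp
    ring
  rw [h2]
  exact ENNReal.div_le_of_le_mul' hfinal

end Vale.Agent.Lib.P243
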