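import Vale.Agent.Lib.P243.Defs
import Vale.Agent.Lib.P243.Cover

open MeasureTheory Set Module Metric
open scoped ENNReal

namespace Vale.P243

open Vale.Agent.Lib.P243 (E3 E2 Good image_volume_pos)

/-- Coordinates of the coordinate plane. -/
noncomputable def coord (y : E2) : ℝ × ℝ := (y 0, y 1)

/-- Inverse of `coord`. -/
noncomputable def coordInv (z : ℝ × ℝ) : E2 := !₂[z.1, z.2]

lemma coord_coordInv (z : ℝ × ℝ) : coord (coordInv z) = z := by
  simp [coord, coordInv]

lemma coordInv_coord (y : E2) : coordInv (coord y) = y := by
  ext i
  fin_cases i <;> simp [coord, coordInv]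

/-- `coord` as a measurable equivalence. -/
noncomputable def coordEquiv : E2 ≃ᵐ ℝ × ℝ where
  toFun := coord
  invFun := coordInv
  left_inv := coordInv_coord
  right_inv := coord_coordInv
  measurable_toFun := by
    change Measurable coord
    unfold coord
    fun_prop
  measurable_invFun := by
    change Measurable coordInv
    have : Continuous coordInv := by
      unfold coordInv
      fun_prop
    exact this.measurable

lemma coord_measurePreserving :
    MeasurePreserving coordEquiv (volume : Measure E2) (volume : Measure (ℝ × ℝ)) := by
  have h := (volume_preserving_finTwoArrow ℝ).comp (PiLp.volume_preserving_ofLp (Fin 2))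
  exact h

lemma volume_coord_image (S : Set E2) : volume (coord '' S) = volume S := by
  have h := coord_measurePreserving.measure_preimage_equiv (coordEquiv '' S)
  rw [coordEquiv.injective.preimage_image] at h
  exact h.symm

lemma volume_coord_preimage (S : Set (ℝ × ℝ)) : volume (coord ⁻¹' S) = volume S :=
  coord_measurePreserving.measure_preimage_equiv S

/-- The projection of a frame as a linear map to the coordinate plane. -/
noncomputable def Frame.lin (F : Frame) : E3 →ₗ[ℝ] E2 where
  toFun x := coordInv (F.proj x)
  map_add' x y := by
    ext i
    fin_cases i <;> simp [coordInv, Frame.proj, inner_add_right]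
  map_smul' c x := by
    ext i
    fin_cases i <;> simp [coordInv, Frame.proj, inner_smul_right]

lemma Frame.lin_apply (F : Frame) (x : E3) : F.lin x = coordInv (F.proj x) := rfl

lemma Frame.coord_lin (F : Frame) (x : E3) : coord (F.lin x) = F.proj x := by
  rw [F.lin_apply, coord_coordInv]

lemma Frame.lin_surjective (F : Frame) : Function.Surjective F.lin := by
  intro y
  refine ⟨y 0 • F.a + y 1 • F.b, ?_⟩
  rw [F.lin_apply, ← coordInv_coord y]
  congr 1
  have h1 := F.inner_a_b
  have h2 : inner ℝ F.b F.a = (0 : ℝ) := by rw [real_inner_comm]; exact h1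
  simp only [Frame.proj, coord, inner_add_right, inner_smul_right, real_inner_self_eq_norm_sq,
    F.norm_a, F.norm_b, h1, h2]
  simp [coordInv]

lemma projArea_eq (K : Set Space) (F : Frame) : projArea K F = volume (F.lin '' K) := by
  rw [← volume_coord_image, image_image, projArea,
    image_congr fun x _ => F.coord_lin x]

/-- Passage from cylinders to linear maps onto the coordinate plane. -/
lemma le_relArea_of_good {K : Set Space} {ε : ℝ} (h : Good K ε) {m : ℕ} (C : Fin m → Cylinder)
    (hC : Covers C K) : ENNReal.ofReal (1 / 3 + ε) ≤ relArea C K := by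
  have hcov : K ⊆ ⋃ i, (C i).frame.lin ⁻¹'
      (toMeasurable volume (coord ⁻¹' (C i).base)) := by
    intro x hx
    obtain ⟨i, hi⟩ := hC x hx
    refine mem_iUnion.2 ⟨i, subset_toMeasurable _ _ ?_⟩
    rw [mem_preimage, Frame.coord_lin]
    exact hi
  refine (h m _ _ (fun i => (C i).frame.lin_surjective)
    (fun i => measurableSet_toMeasurable _ _) hcov).trans_eq ?_
  refine Finset.sum_congr rfl fun i _ => ?_
  rw [measure_toMeasurable, volume_coord_preimage, projArea_eq]

/-- From the directionwise relative area to the total area. -/
lemma relArea_mul_le {K : Set Space} {m : ℕ} (C : Fin m → Cylinder) :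
    relArea C K * minProjArea K ≤ totalArea C := by
  rw [relArea, totalArea, Finset.sum_mul]
  refine Finset.sum_le_sum fun i _ => ?_
  have h : minProjArea K ≤ projArea K (C i).frame := iInf_le _ (C i).frame
  calc volume (C i).base / projArea K (C i).frame * minProjArea K
      ≤ volume (C i).base / projArea K (C i).frame * projArea K (C i).frame := by gcongr
    _ ≤ volume (C i).base := by rw [mul_comm]; exact ENNReal.mul_div_le

end Vale.P243
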