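import Vale.Agent.Lib.P243.Split

open MeasureTheory Set Module
open scoped ENNReal Pointwise NNReal

namespace Vale.Agent.Lib.P243

/-- Volume growth in a splitting of space. -/
lemma chord_ennreal {P : E3 →ₗ[ℝ] E2} {T : E3 ≃L[ℝ] E2 × ℝ} {c : ℝ} (hc0 : 0 < c)
    (hTP : ∀ x, (T x).1 = P x)
    (hvol : ∀ S : Set E3, volume S =
        ENNReal.ofReal c * ((volume : Measure E2).prod (volume : Measure ℝ)) (T '' S))
    {K : Set E3} (hK : IsCompact K) (hcv : Convex ℝ K) {h : ℝ} (hh : 0 ≤ h) :
    volume K + ENNReal.ofReal (c * h) * volume (P '' K) ≤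
      volume (K + T.symm '' ({0} ×ˢ Icc 0 h : Set (E2 × ℝ))) := by
  have hTK : IsCompact (T '' K) := hK.image T.continuous
  have hTKc : Convex ℝ (T '' K) := hcv.linear_image (T : E3 →ₗ[ℝ] E2 × ℝ)
  have hfst : Prod.fst '' (T '' K) = P '' K := by
    rw [image_image]
    exact image_congr fun x _ => hTP x
  have himg : T '' (K + T.symm '' ({0} ×ˢ Icc 0 h : Set (E2 × ℝ))) =
      T '' K + ({0} ×ˢ Icc 0 h : Set (E2 × ℝ)) := by
    rw [image_add, image_image]
    simp
  have key := vol_add_segment (volume : Measure E2) hTK hTKc hh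
  rw [hfst] at key
  rw [hvol K, hvol (K + _), himg, ENNReal.ofReal_mul hc0.le, mul_assoc, ← mul_add]
  gcongr

/-- The chord inequality. -/
lemma chord_volume {P : E3 →ₗ[ℝ] E2} {T : E3 ≃L[ℝ] E2 × ℝ} {c : ℝ} (hc0 : 0 < c)
    (hTP : ∀ x, (T x).1 = P x)
    (hvol : ∀ S : Set E3, volume S =
        ENNReal.ofReal c * ((volume : Measure E2).prod (volume : Measure ℝ)) (T '' S))
    {K : Set E3} (hK : IsCompact K) (hcv : Convex ℝ K) {p q : E3} (hpq : P p = P q)
    (hle : (T p).2 ≤ (T q).2) {t : ℝ} (ht0 : 0 < t) (ht1 : t < 1) :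
    (1 - t) ^ 3 * volume.real K +
        t * (1 - t) ^ 2 * (c * ((T q).2 - (T p).2)) * volume.real (P '' K) ≤
      volume.real ((1 - t) • K + t • segment ℝ p q) := by
  have h1t : 0 < 1 - t := by linarith
  set ℓ : ℝ := (T q).2 - (T p).2 with hℓ
  have hℓ0 : 0 ≤ ℓ := by simp only [hℓ]; linarith
  set h : ℝ := t / (1 - t) * ℓ with hh
  have hh0 : 0 ≤ h := by positivity
  have hTqp : T (q - p) = (0, ℓ) := by
    rw [map_sub]
    ext
    · simp [hTP, hpq]
    · simp [hℓ]
  set Y : Set E3 := K + T.symm '' ({0} ×ˢ Icc 0 h : Set (E2 × ℝ)) with hY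
  have hsub : (1 - t) • ((t / (1 - t)) • p +ᵥ Y) ⊆ (1 - t) • K + t • segment ℝ p q := by
    rintro _ ⟨_, ⟨_, ⟨k, hk, _, ⟨⟨z, τ⟩, ⟨hz, hτ⟩, rfl⟩, rfl⟩, rfl⟩, rfl⟩
    simp only [mem_singleton_iff] at hz
    subst hz
    simp only at hτ
    have hsym : ∃ θ ∈ Icc (0 : ℝ) 1, (1 - t) • T.symm ((0 : E2), τ) = (t * θ) • (q - p) := by
      rcases eq_or_lt_of_le hℓ0 with h0 | h0
      · have : τ = 0 := by
          have h2 := hτ.2
          rw [hh, ← h0, mul_zero] at h2
          exact le_antisymm h2 hτ.1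
        refine ⟨0, ⟨le_rfl, zero_le_one⟩, ?_⟩
        have h00 : ((0 : E2), τ) = 0 := by rw [this]; rfl
        rw [h00, map_zero]
        simp
      · refine ⟨(1 - t) * τ / (t * ℓ), ⟨?_, ?_⟩, ?_⟩
        · have := hτ.1
          positivity
        · rw [div_le_one (by positivity)]
          have := hτ.2
          rw [hh] at this
          calc (1 - t) * τ ≤ (1 - t) * (t / (1 - t) * ℓ) := by gcongr
            _ = t * ℓ := by field_simp
        · apply T.injective
          rw [map_smul, map_smul, hTqp, T.apply_symm_apply]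
          ext
          · simp
          · simp only [Prod.smul_mk, smul_eq_mul]
            field_simp
    obtain ⟨θ, hθ, hθe⟩ := hsym
    refine ⟨(1 - t) • k, smul_mem_smul_set hk, t • (p + θ • (q - p)), smul_mem_smul_set ?_, ?_⟩
    · refine ⟨1 - θ, θ, by linarith [hθ.2], hθ.1, by ring, ?_⟩
      simp only [smul_sub, sub_smul, one_smul]
      abel
    · simp only [vadd_eq_add, smul_add]
      rw [hθe, smul_smul, smul_smul, mul_div_cancel₀ _ h1t.ne']
      abel
  have hcomp : IsCompact ((1 - t) • K + t • segment ℝ p q) := by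
    have hseg : IsCompact (segment ℝ p q) := by
      rw [segment_eq_image_lineMap]
      exact isCompact_Icc.image (AffineMap.lineMap_continuous)
    exact (hK.smul _).add (hseg.smul _)
  have hPK : IsCompact (P '' K) := hK.image (LinearMap.continuous_of_finiteDimensional P)
  have key := chord_ennreal hc0 hTP hvol hK hcv hh0
  have h3 : ENNReal.ofReal ((1 - t) ^ 3) * (volume K + ENNReal.ofReal (c * h) * volume (P '' K)) ≤
      volume ((1 - t) • K + t • segment ℝ p q) := by
    calc _ ≤ ENNReal.ofReal ((1 - t) ^ 3) * volume Y := by gcongr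
      _ = volume ((1 - t) • ((t / (1 - t)) • p +ᵥ Y)) := by
        rw [Measure.addHaar_smul, measure_vadd]
        simp [abs_of_pos h1t]
      _ ≤ _ := measure_mono hsub
  have h4 := ENNReal.toReal_mono hcomp.measure_lt_top.ne h3
  rw [ENNReal.toReal_mul, ENNReal.toReal_add hK.measure_lt_top.ne
    (ENNReal.mul_ne_top ENNReal.ofReal_ne_top hPK.measure_lt_top.ne), ENNReal.toReal_mul,
    ENNReal.toReal_ofReal (by positivity), ENNReal.toReal_ofReal (by positivity)] at h4
  simp only [Measure.real] at *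
  calc _ = (1 - t) ^ 3 * ((volume K).toReal + c * h * (volume (P '' K)).toReal) := by
        rw [hh]
        field_simp
    _ ≤ _ := h4

end Vale.Agent.Lib.P243
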