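import Mathlib

/-!
# Definitions for Bang's cylinder covering problem (P243)

A plane `u^⊥` through the origin is described by an orthonormal basis `(a, b)` of it (a `Frame`);
`u` is the unit vector orthogonal to `a` and `b`. In the orthonormal coordinates given by `(a, b)`
the orthogonal projection onto `u^⊥` is `x ↦ (⟪a, x⟫, ⟪b, x⟫)`, the area on `u^⊥` is Lebesgue
measure on `ℝ × ℝ`, and the cylinder `B + ℝ u` is the set of points whose projection is in `B`.
-/

open MeasureTheory Set
open scoped ENNReal

namespace Vale.P243

/-- Euclidean three-space. -/
abbrev Space := EuclideanSpace ℝ (Fin 3)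

/-- A convex body: a compact convex set with nonempty interior. -/
structure IsConvexBody (K : Set Space) : Prop where
  isCompact : IsCompact K
  convex : Convex ℝ K
  nonempty_interior : (interior K).Nonempty

/-- `K` is centrally symmetric, i.e. symmetric about some point `p`. -/
def IsCentrallySymmetric (K : Set Space) : Prop :=
  ∃ p : Space, ∀ x ∈ K, (2 : ℝ) • p - x ∈ K

/-- An orthonormal pair of vectors: an orthonormal basis of a plane `u^⊥`. -/
structure Frame where
  /-- first basis vector -/
  a : Space
  /-- second basis vector -/
  b : Space
  norm_a : ‖a‖ = 1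
  norm_b : ‖b‖ = 1
  inner_a_b : inner ℝ a b = 0

/-- The orthogonal projection onto the plane of the frame, in the coordinates of the frame. -/
noncomputable def Frame.proj (F : Frame) (x : Space) : ℝ × ℝ :=
  (inner ℝ F.a x, inner ℝ F.b x)

/-- A cylinder `B + ℝ u`: a frame of the plane `u^⊥` and a Lebesgue measurable base in that plane,
of finite area. -/
structure Cylinder where
  /-- the frame of the plane `u^⊥` -/
  frame : Frame
  /-- the base, in the coordinates of the frame -/
  base : Set (ℝ × ℝ)
  measurable_base : NullMeasurableSet base volume
  area_base_lt_top : volume base < ⊤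

/-- The set of points of a cylinder. -/
def Cylinder.toSet (C : Cylinder) : Set Space := {x | C.frame.proj x ∈ C.base}

/-- The area of the orthogonal projection of `K` onto the plane of the frame. -/
noncomputable def projArea (K : Set Space) (F : Frame) : ℝ≥0∞ := volume (F.proj '' K)

/-- The smallest area of an orthogonal projection of `K` onto a plane. -/
noncomputable def minProjArea (K : Set Space) : ℝ≥0∞ := ⨅ F : Frame, projArea K F

/-- The cylinders `C 0, …, C (m - 1)` cover `K`. -/
def Covers {m : ℕ} (C : Fin m → Cylinder) (K : Set Space) : Prop :=
  ∀ x ∈ K, ∃ i, x ∈ (C i).toSet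

/-- The sum of the areas of the bases of finitely many cylinders. -/
noncomputable def totalArea {m : ℕ} (C : Fin m → Cylinder) : ℝ≥0∞ :=
  ∑ i, volume (C i).base

/-- The directionwise relative area of a finite family of cylinders. -/
noncomputable def relArea {m : ℕ} (C : Fin m → Cylinder) (K : Set Space) : ℝ≥0∞ :=
  ∑ i, volume (C i).base / projArea K (C i).frame

end Vale.P243
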