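import Vale.Agent.Lib.P243.Split

open MeasureTheory Set Module Metric
open scoped ENNReal Pointwise NNReal Topology

namespace Vale.Agent.Lib.P243

lemma exists_split_plane {y : E2} (hy : y ≠ 0) :
    ∃ (T : E2 ≃L[ℝ] ℝ × ℝ) (c : ℝ), 0 < c ∧ T y = (0, 1) ∧
      ∀ S : Set E2, volume S =
        ENNReal.ofReal c * ((volume : Measure ℝ).prod (volume : Measure ℝ)) (T '' S) := by
  let f1 : E2 →ₗ[ℝ] ℝ :=
    { toFun := fun x => y 0 * x 1 - y 1 * x 0
      map_add' := fun a b => by simp only [PiLp.add_apply]; ring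
      map_smul' := fun t a => by simp only [PiLp.smul_apply, smul_eq_mul, RingHom.id_apply]; ring }
  let f2 : E2 →ₗ[ℝ] ℝ :=
    { toFun := fun x => (y 0 * x 0 + y 1 * x 1) / (y 0 ^ 2 + y 1 ^ 2)
      map_add' := fun a b => by simp only [PiLp.add_apply]; ring
      map_smul' := fun t a => by simp only [PiLp.smul_apply, smul_eq_mul, RingHom.id_apply]; ring }
  have hq : 0 < y 0 ^ 2 + y 1 ^ 2 := by
    by_contra h
    push Not at h
    have h0 : y 0 = 0 := by nlinarith [sq_nonneg (y 0), sq_nonneg (y 1)]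
    have h1 : y 1 = 0 := by nlinarith [sq_nonneg (y 0), sq_nonneg (y 1)]
    apply hy
    ext i
    fin_cases i
    · exact h0
    · exact h1
  let L : E2 →ₗ[ℝ] ℝ × ℝ := f1.prod f2
  have hL : ∀ x, L x = (y 0 * x 1 - y 1 * x 0, (y 0 * x 0 + y 1 * x 1) / (y 0 ^ 2 + y 1 ^ 2)) :=
    fun x => rfl
  have hinj : Function.Injective L := by
    rw [← LinearMap.ker_eq_bot, LinearMap.ker_eq_bot']
    intro x hx
    rw [hL, Prod.mk_eq_zero, div_eq_zero_iff] at hx
    obtain ⟨h1, h2 | h2⟩ := hx
    · have e0 : (y 0 ^ 2 + y 1 ^ 2) * x 0 = 0 := by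
        linear_combination (y 0) * h2 - (y 1) * h1
      have e1 : (y 0 ^ 2 + y 1 ^ 2) * x 1 = 0 := by
        linear_combination (y 1) * h2 + (y 0) * h1
      ext i
      fin_cases i
      · exact (mul_eq_zero.1 e0).resolve_left hq.ne'
      · exact (mul_eq_zero.1 e1).resolve_left hq.ne'
    · exact absurd h2 hq.ne'
  let Te : E2 ≃ₗ[ℝ] ℝ × ℝ := LinearMap.linearEquivOfInjective L hinj (by simp)
  let T : E2 ≃L[ℝ] ℝ × ℝ := Te.toContinuousLinearEquiv
  have hTL : ∀ x, T x = L x := fun x => by simp [T, Te]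
  let ν : Measure (ℝ × ℝ) := (volume : Measure ℝ).prod (volume : Measure ℝ)
  let μ' : Measure (ℝ × ℝ) := Measure.map T (volume : Measure E2)
  have : μ'.IsAddHaarMeasure := T.isAddHaarMeasure_map _
  obtain ⟨c, hpos, hμ⟩ : ∃ c : ℝ≥0, 0 < c ∧ μ' = c • ν :=
    ⟨μ'.addHaarScalarFactor ν, Measure.addHaarScalarFactor_pos_of_isAddHaarMeasure μ' ν,
      Measure.isAddLeftInvariant_eq_smul μ' ν⟩
  refine ⟨T, (c : ℝ), by exact_mod_cast hpos, ?_, fun S => ?_⟩
  · rw [hTL, hL]
    ext
    · simp only; ring
    · simp only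
      rw [div_eq_one_iff_eq hq.ne']
      ring
  have h1 : μ' (T '' S) = volume S := by
    have : μ' (T '' S) = volume (T ⁻¹' (T '' S)) :=
      T.toHomeomorph.toMeasurableEquiv.map_apply (μ := (volume : Measure E2)) (T '' S)
    rw [this, T.injective.preimage_image]
  rw [← h1, hμ]
  rw [Measure.coe_nnreal_smul_apply, ENNReal.ofReal_coe_nnreal]

/-- Adding a segment to a centrally symmetric planar body. -/
lemma planar_add_segment {A : Set E2} (hA : IsCompact A) (hcv : Convex ℝ A)
    (hsym : ∀ x ∈ A, -x ∈ A) (hA0 : A ∈ 𝓝 (0 : E2)) (y : E2) {s : ℝ} (hs : 0 ≤ s) :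
    ENNReal.ofReal (1 + s * gauge A y) * volume A ≤
      volume (A + segment ℝ (-(s • y)) (s • y)) := by
  have h0seg : (0 : E2) ∈ segment ℝ (-(s • y)) (s • y) :=
    ⟨1 / 2, 1 / 2, by norm_num, by norm_num, by norm_num, by
      rw [← smul_add, neg_add_cancel, smul_zero]⟩
  by_cases hy : y = 0
  · rw [hy, gauge_zero, mul_zero, add_zero, ENNReal.ofReal_one, one_mul]
    apply measure_mono
    intro x hx
    rw [← hy]
    exact ⟨x, hx, 0, h0seg, add_zero x⟩
  obtain ⟨T, c, hc0, hTy, hvol⟩ := exists_split_plane hy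
  set r := gauge A y with hr
  have hrpos : 0 < r := by
    have habs : Absorbent ℝ A := absorbent_nhds_zero hA0
    have hbd : Bornology.IsVonNBounded ℝ A := NormedSpace.isVonNBounded_of_isBounded ℝ hA.isBounded
    exact (gauge_pos habs hbd).2 hy
  have hTA : IsCompact (T '' A) := hA.image T.continuous
  have hTAc : Convex ℝ (T '' A) := hcv.linear_image (T : E2 →ₗ[ℝ] ℝ × ℝ)
  have hTAm : MeasurableSet (T '' A) := hTA.isClosed.measurableSet
  have hBm : MeasurableSet (Prod.fst '' (T '' A)) :=
    (hTA.image continuous_fst).isClosed.measurableSet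
  have h2s : 0 ≤ 2 * s := by linarith
  have key := vol_add_segment (volume : Measure ℝ) hTA hTAc h2s
  -- the chords in direction `y` have length at most `2 / r`
  have hchord : ((volume : Measure ℝ).prod (volume : Measure ℝ)) (T '' A) ≤
      ENNReal.ofReal (2 / r) * volume (Prod.fst '' (T '' A)) := by
    rw [Measure.prod_apply hTAm, ← lintegral_indicator_const hBm]
    apply lintegral_mono
    intro z
    by_cases hz : z ∈ Prod.fst '' (T '' A)
    · obtain ⟨a, b, hab, hf⟩ := fiber_eq_Icc hTA hTAc hz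
      simp only [hf, indicator_of_mem hz, Real.volume_Icc]
      apply ENNReal.ofReal_le_ofReal
      have ha : (z, a) ∈ T '' A := by
        have : a ∈ Prod.mk z ⁻¹' (T '' A) := by rw [hf]; exact ⟨le_rfl, hab⟩
        exact this
      have hb : (z, b) ∈ T '' A := by
        have : b ∈ Prod.mk z ⁻¹' (T '' A) := by rw [hf]; exact ⟨hab, le_rfl⟩
        exact this
      obtain ⟨p, hp, hpe⟩ := ha
      obtain ⟨q, hq, hqe⟩ := hb
      have hpq : q - p = (b - a) • y := by
        apply T.injective
        rw [map_sub, map_smul, hTy, hpe, hqe]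
        ext <;> simp
      have hmid : ((b - a) / 2) • y ∈ A := by
        have h1 := hcv hq (hsym p hp) (by norm_num : (0 : ℝ) ≤ 1 / 2)
          (by norm_num : (0 : ℝ) ≤ 1 / 2) (by norm_num)
        have h2 : (1 / 2 : ℝ) • q + (1 / 2 : ℝ) • (-p) = ((b - a) / 2) • y := by
          rw [← smul_add, ← sub_eq_add_neg, hpq, smul_smul]
          congr 1
          ring
        rwa [h2] at h1
      have hg : gauge A (((b - a) / 2) • y) ≤ 1 := gauge_le_one_of_mem hmid
      rw [gauge_smul_of_nonneg (by linarith), smul_eq_mul, ← hr] at hg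
      rw [le_div_iff₀ hrpos]
      linarith
    · show volume (Prod.mk z ⁻¹' (T '' A)) ≤ _
      rw [fiber_empty hz, measure_empty]
      exact zero_le
  -- compare
  have himg : T '' (A + segment ℝ (-(s • y)) (s • y)) =
      (T '' A + ({0} ×ˢ Icc 0 (2 * s) : Set (ℝ × ℝ))) + {((0 : ℝ), -s)} := by
    have hseg : T '' segment ℝ (-(s • y)) (s • y) =
        ({0} ×ˢ Icc 0 (2 * s) : Set (ℝ × ℝ)) + {((0 : ℝ), -s)} := by
      ext ⟨u, v⟩
      constructor
      · rintro ⟨_, ⟨α, β, hα, hβ, hαβ, rfl⟩, hx⟩
        rw [← smul_neg, smul_smul, smul_smul, smul_neg, map_add, map_neg, map_smul, map_smul,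
          hTy] at hx
        refine ⟨(0, 2 * s * β), ⟨rfl, by positivity, ?_⟩, (0, -s), rfl, ?_⟩
        · have : β ≤ 1 := by linarith
          simp only
          nlinarith
        · rw [← hx]
          ext
          · simp
          · simp
            have : α = 1 - β := by linarith
            rw [this]; ring
      · rintro ⟨⟨u', v'⟩, ⟨hu, hv⟩, _, rfl, hx⟩
        simp only [mem_singleton_iff] at hu
        subst hu
        simp only [Prod.mk_add_mk, Prod.mk.injEq, add_zero] at hx
        obtain ⟨rfl, rfl⟩ := hx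
        simp only at hv
        rcases eq_or_lt_of_le hs with h | h
        · rw [← h] at hv ⊢
          have : v' = 0 := by
            have := hv.1; have := hv.2; linarith
          refine ⟨0, ?_, ?_⟩
          · simp
          · rw [map_zero, this]; ext <;> simp
        · refine ⟨(v' - s) • y, ⟨1 - v' / (2 * s), v' / (2 * s), ?_, ?_, by ring, ?_⟩, ?_⟩
          · rw [sub_nonneg, div_le_one (by positivity)]; exact hv.2
          · exact div_nonneg hv.1 (by positivity)
          · rw [← smul_neg, smul_smul, smul_smul, smul_neg, ← neg_smul, ← add_smul]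
            congr 1
            field_simp
            ring
          · rw [map_smul, hTy]
            ext <;> simp; ring
    rw [image_add, hseg, add_assoc]
  have htrans : ∀ S : Set (ℝ × ℝ), ((volume : Measure ℝ).prod (volume : Measure ℝ))
      (S + {((0 : ℝ), -s)}) = ((volume : Measure ℝ).prod (volume : Measure ℝ)) S := by
    intro S
    rw [add_singleton, image_add_right, measure_preimage_add_right]
  rw [hvol A, hvol (A + _), himg, htrans]
  calc ENNReal.ofReal (1 + s * r) * (ENNReal.ofReal c *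
        ((volume : Measure ℝ).prod (volume : Measure ℝ)) (T '' A))
      = ENNReal.ofReal c * (((volume : Measure ℝ).prod (volume : Measure ℝ)) (T '' A) +
          ENNReal.ofReal (s * r) * ((volume : Measure ℝ).prod (volume : Measure ℝ)) (T '' A)) := by
        rw [ENNReal.ofReal_add (by norm_num) (by positivity), ENNReal.ofReal_one]
        ring
    _ ≤ ENNReal.ofReal c * (((volume : Measure ℝ).prod (volume : Measure ℝ)) (T '' A) +
          ENNReal.ofReal (s * r) * (ENNReal.ofReal (2 / r) *
            volume (Prod.fst '' (T '' A)))) := by gcongr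
    _ = ENNReal.ofReal c * (((volume : Measure ℝ).prod (volume : Measure ℝ)) (T '' A) +
          ENNReal.ofReal (2 * s) * volume (Prod.fst '' (T '' A))) := by
        rw [← mul_assoc, ← ENNReal.ofReal_mul (by positivity)]
        congr 3
        field_simp
    _ ≤ _ := by gcongr

/-- The sets `(1 - t) A + t [-y, y]`. -/
lemma planar_combo {A : Set E2} (hA : IsCompact A) (hcv : Convex ℝ A)
    (hsym : ∀ x ∈ A, -x ∈ A) (hA0 : A ∈ 𝓝 (0 : E2)) (y : E2) {t : ℝ} (ht0 : 0 ≤ t) (ht1 : t < 1) :
    ENNReal.ofReal ((1 - t) ^ 2 + t * (1 - t) * gauge A y) * volume A ≤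
      volume ((1 - t) • A + t • segment ℝ (-y) y) := by
  have h1t : 0 < 1 - t := by linarith
  have h := planar_add_segment hA hcv hsym hA0 y (div_nonneg ht0 h1t.le)
  have heq : (1 - t) • A + t • segment ℝ (-y) y =
      (1 - t) • (A + segment ℝ (-((t / (1 - t)) • y)) ((t / (1 - t)) • y)) := by
    rw [smul_add]
    congr 1
    have : segment ℝ (-((t / (1 - t)) • y)) ((t / (1 - t)) • y) =
        (t / (1 - t)) • segment ℝ (-y) y := by
      rw [← smul_neg]
      exact (image_segment ℝ (LinearMap.lsmul ℝ E2 (t / (1 - t))).toAffineMap (-y) y).symm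
    rw [this, smul_smul, mul_div_cancel₀ _ h1t.ne']
  rw [heq, Measure.addHaar_smul]
  have hfin : finrank ℝ E2 = 2 := by simp
  rw [hfin, abs_of_pos (by positivity)]
  calc ENNReal.ofReal ((1 - t) ^ 2 + t * (1 - t) * gauge A y) * volume A
      = ENNReal.ofReal ((1 - t) ^ 2) *
          (ENNReal.ofReal (1 + t / (1 - t) * gauge A y) * volume A) := by
        rw [← mul_assoc, ← ENNReal.ofReal_mul (by positivity)]
        congr 2
        field_simp
    _ ≤ _ := by gcongr

end Vale.Agent.Lib.P243
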