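import Mathlib

open MeasureTheory Set
open scoped ENNReal Pointwise

namespace Vale.Agent.Lib.P243

set_option linter.unusedSectionVars false

section fiber

/-- A compact convex nonempty set of reals is an interval. -/
lemma compact_convex_real {S : Set ℝ} (hS : IsCompact S) (hc : Convex ℝ S) (hn : S.Nonempty) :
    ∃ a b : ℝ, a ≤ b ∧ S = Icc a b := by
  refine ⟨sInf S, sSup S, ?_, ?_⟩
  · exact csInf_le_csSup hn hS.bddBelow hS.bddAbove
  · apply Subset.antisymm
    · intro x hx
      exact ⟨csInf_le hS.bddBelow hx, le_csSup hS.bddAbove hx⟩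
    · exact hc.ordConnected.out (hS.sInf_mem hn) (hS.sSup_mem hn)

variable {F : Type*} [NormedAddCommGroup F] [NormedSpace ℝ F]

lemma fiber_compact {K : Set (F × ℝ)} (hK : IsCompact K) (y : F) :
    IsCompact (Prod.mk y ⁻¹' K) := by
  have h1 : Prod.mk y ⁻¹' K = Prod.snd '' (K ∩ (Prod.fst ⁻¹' {y})) := by
    ext s
    constructor
    · intro hs
      exact ⟨(y, s), ⟨hs, rfl⟩, rfl⟩
    · rintro ⟨⟨y', s'⟩, ⟨h, h'⟩, rfl⟩
      simp only [mem_preimage, mem_singleton_iff] at h'
      subst h'
      exact h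
  rw [h1]
  exact (hK.inter_right (isClosed_singleton.preimage continuous_fst)).image continuous_snd

lemma fiber_convex {K : Set (F × ℝ)} (hc : Convex ℝ K) (y : F) :
    Convex ℝ (Prod.mk y ⁻¹' K) := by
  intro s hs t ht a b ha hb hab
  have := hc hs ht ha hb hab
  simp only [mem_preimage] at *
  convert this using 1
  ext
  · simp [← add_smul, hab]
  · simp

lemma fiber_eq_Icc {K : Set (F × ℝ)} (hK : IsCompact K) (hc : Convex ℝ K) {y : F}
    (hy : y ∈ Prod.fst '' K) :
    ∃ a b : ℝ, a ≤ b ∧ Prod.mk y ⁻¹' K = Icc a b := by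
  apply compact_convex_real (fiber_compact hK y) (fiber_convex hc y)
  obtain ⟨⟨y', s⟩, h, rfl⟩ := hy
  exact ⟨s, h⟩

lemma fiber_empty {K : Set (F × ℝ)} {y : F} (hy : y ∉ Prod.fst '' K) :
    Prod.mk y ⁻¹' K = ∅ := by
  ext s
  simp only [mem_preimage, mem_empty_iff_false, iff_false]
  intro h
  exact hy ⟨(y, s), h, rfl⟩

variable [MeasurableSpace F] [BorelSpace F] [FiniteDimensional ℝ F]
  (μ : Measure F) [SFinite μ]

/-- Adding a vertical segment of length `h` to a compact convex body increases the volume by at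
least `h` times the measure of the shadow. -/
lemma vol_add_segment {K : Set (F × ℝ)} (hK : IsCompact K) (hc : Convex ℝ K) {h : ℝ}
    (hh : 0 ≤ h) :
    (μ.prod volume) K + ENNReal.ofReal h * μ (Prod.fst '' K) ≤
      (μ.prod volume) (K + ({0} ×ˢ Icc 0 h : Set (F × ℝ))) := by
  have hKm : MeasurableSet K := hK.isClosed.measurableSet
  have hAc : IsCompact (Prod.fst '' K) := hK.image continuous_fst
  have hAm : MeasurableSet (Prod.fst '' K) := hAc.isClosed.measurableSet
  have hLc : IsCompact (K + ({0} ×ˢ Icc 0 h : Set (F × ℝ))) :=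
    hK.add (isCompact_singleton.prod isCompact_Icc)
  have hLm := hLc.isClosed.measurableSet
  rw [Measure.prod_apply hKm, Measure.prod_apply hLm, ← lintegral_indicator_const hAm,
    ← lintegral_add_right _ (measurable_const.indicator hAm)]
  apply lintegral_mono
  intro y
  by_cases hy : y ∈ Prod.fst '' K
  · obtain ⟨a, b, hab, hf⟩ := fiber_eq_Icc hK hc hy
    simp only [hf, indicator_of_mem hy, Real.volume_Icc]
    rw [← ENNReal.ofReal_add (by linarith) hh]
    have hsub : Icc a (b + h) ⊆ Prod.mk y ⁻¹' (K + ({0} ×ˢ Icc 0 h : Set (F × ℝ))) := by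
      intro s hs
      rcases le_total s b with hsb | hsb
      · have : s ∈ Prod.mk y ⁻¹' K := by rw [hf]; exact ⟨hs.1, hsb⟩
        refine ⟨(y, s), this, (0, 0), ⟨rfl, by simp [hh]⟩, by simp⟩
      · have : b ∈ Prod.mk y ⁻¹' K := by rw [hf]; exact ⟨hab, le_rfl⟩
        refine ⟨(y, b), this, (0, s - b), ⟨rfl, ?_, ?_⟩, by simp⟩
        · simp only; linarith
        · simp only; linarith [hs.2]
    calc ENNReal.ofReal (b - a + h) = volume (Icc a (b + h)) := by
          rw [Real.volume_Icc]; congr 1; ring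
      _ ≤ _ := measure_mono hsub
  · show volume (Prod.mk y ⁻¹' K) + (Prod.fst '' K).indicator (fun _ => ENNReal.ofReal h) y ≤ _
    rw [fiber_empty hy, indicator_of_notMem hy]
    simp

end fiber

end Vale.Agent.Lib.P243
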