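import Vale.Agent.Lib.P243.Chord

open MeasureTheory Set Module Metric
open scoped ENNReal Pointwise NNReal Topology

namespace Vale.Agent.Lib.P243

/-- The polar body. -/
def polarSet (K : Set E3) : Set E3 := {w | ∀ x ∈ K, inner ℝ w x ≤ 1}

/-- `w` is the only normalized supporting functional of `K` at `x₁`. -/
def SmoothAt (K : Set E3) (w x₁ : E3) : Prop :=
  x₁ ∈ K ∧ w ∈ polarSet K ∧ inner ℝ w x₁ = 1 ∧
    ∀ w' ∈ polarSet K, inner ℝ w' x₁ = 1 → w' = w

lemma polarSet_norm_le {K : Set E3} {r : ℝ} (hr : 0 < r) (hball : closedBall 0 r ⊆ K) {w : E3}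
    (hw : w ∈ polarSet K) : ‖w‖ ≤ r⁻¹ := by
  by_cases hw0 : w = 0
  · rw [hw0, norm_zero]; positivity
  have hn : 0 < ‖w‖ := norm_pos_iff.2 hw0
  have hx : (r / ‖w‖) • w ∈ K := hball (by
    rw [mem_closedBall, dist_zero_right, norm_smul, Real.norm_of_nonneg (by positivity),
      div_mul_cancel₀ _ hn.ne'])
  have := hw _ hx
  rw [inner_smul_right, real_inner_self_eq_norm_sq] at this
  rw [le_inv_comm₀ hn hr, ← one_div, le_div_iff₀ hn]
  calc r * ‖w‖ = r / ‖w‖ * ‖w‖ ^ 2 := by field_simp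
    _ ≤ 1 := this

lemma polarSet_isClosed (K : Set E3) : IsClosed (polarSet K) := by
  have : polarSet K = ⋂ x ∈ K, {w : E3 | inner ℝ w x ≤ 1} := by
    ext w; simp [polarSet]
  rw [this]
  refine isClosed_biInter fun x _ => ?_
  exact isClosed_le (by fun_prop) continuous_const

lemma polarSet_isCompact {K : Set E3} {r : ℝ} (hr : 0 < r) (hball : closedBall 0 r ⊆ K) :
    IsCompact (polarSet K) := by
  apply Metric.isCompact_of_isClosed_isBounded (polarSet_isClosed K)
  rw [isBounded_iff_forall_norm_le]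
  exact ⟨r⁻¹, fun w hw => polarSet_norm_le hr hball hw⟩

lemma smooth_close {K : Set E3} (hK : IsCompact K) {r₀ : ℝ} (hr₀ : 0 < r₀)
    (hball : closedBall 0 r₀ ⊆ K) {w x₁ : E3} (hs : SmoothAt K w x₁) {σ : ℝ} (hσ : 0 < σ) :
    ∃ r > 0, ∀ b ∈ K, ∀ w' ∈ polarSet K, inner ℝ w' b = 1 → ‖b - x₁‖ < r →
      ∀ x ∈ K, |inner ℝ w' x - inner ℝ w x| < σ := by
  have hPc := polarSet_isCompact hr₀ hball
  let D : Set (E3 × E3) := (polarSet K ×ˢ K) ∩ {z | σ ≤ |inner ℝ z.1 z.2 - inner ℝ w z.2|}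
  have hD : IsCompact D := by
    apply (hPc.prod hK).inter_right
    apply isClosed_le continuous_const
    fun_prop
  let C : Set E3 := Prod.fst '' D
  have hC : IsCompact C := hD.image continuous_fst
  have hlt : ∀ w' ∈ C, inner ℝ w' x₁ < 1 := by
    rintro w' ⟨⟨w'', x⟩, ⟨⟨h1, h2⟩, h3⟩, rfl⟩
    simp only at h1 h2 h3 ⊢
    refine lt_of_le_of_ne (h1 _ hs.1) fun h => ?_
    have := hs.2.2.2 w'' h1 h
    simp only [mem_ofPred_eq] at h3
    rw [this, sub_self, abs_zero] at h3
    linarith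
  obtain ⟨m, hm1, hm⟩ : ∃ m < 1, ∀ w' ∈ C, inner ℝ w' x₁ ≤ m := by
    rcases C.eq_empty_or_nonempty with h | h
    · exact ⟨0, one_pos, fun w' hw' => by rw [h] at hw'; exact absurd hw' (notMem_empty _)⟩
    · obtain ⟨w₀, hw₀, hmax⟩ := hC.exists_isMaxOn h
        (f := fun w' => inner ℝ w' x₁) (by fun_prop)
      exact ⟨inner ℝ w₀ x₁, hlt _ hw₀, fun w' hw' => hmax hw'⟩
  refine ⟨(1 - m) * r₀, by nlinarith, fun b _ w' hw' hb hbr x hx => ?_⟩
  by_contra hcon
  push Not at hcon
  have hw'C : w' ∈ C := ⟨(w', x), ⟨⟨hw', hx⟩, hcon⟩, rfl⟩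
  have h1 := hm w' hw'C
  have h2 : inner ℝ w' (b - x₁) ≤ ‖w'‖ * ‖b - x₁‖ := real_inner_le_norm _ _
  have h3 := polarSet_norm_le hr₀ hball hw'
  have h4 : ‖w'‖ * ‖b - x₁‖ ≤ r₀⁻¹ * ‖b - x₁‖ := by gcongr
  have h5 : r₀⁻¹ * ‖b - x₁‖ < r₀⁻¹ * ((1 - m) * r₀) := by gcongr
  have h6 : r₀⁻¹ * ((1 - m) * r₀) = 1 - m := by field_simp
  rw [inner_sub_right, hb] at h2
  linarith

lemma exists_support {K : Set E3} (hc : Convex ℝ K) (hK0 : K ∈ 𝓝 (0 : E3)) {b : E3}
    (hb : gauge K b = 1) : ∃ w ∈ polarSet K, inner ℝ w b = 1 := by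
  have h0 : (0 : E3) ∈ interior K := mem_interior_iff_mem_nhds.2 hK0
  have hbn : b ∉ interior K := by
    rw [← gauge_lt_one_iff_mem_interior hc hK0, hb]
    exact lt_irrefl 1
  obtain ⟨f, hf⟩ := geometric_hahn_banach_open_point hc.interior isOpen_interior hbn
  have hfb : 0 < f b := by simpa using hf 0 h0
  have hle : ∀ x ∈ K, f x ≤ f b := by
    have hcl : closure (interior K) ⊆ {x | f x ≤ f b} := by
      apply closure_minimal (fun x hx => (hf x hx).le)
      exact isClosed_le f.continuous continuous_const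
    intro x hx
    exact hcl ((hc.closure_interior_eq_closure_of_nonempty_interior ⟨0, h0⟩) ▸
      (subset_closure hx))
  have hdual : ∀ x, inner ℝ ((InnerProductSpace.toDual ℝ E3).symm f) x = f x := fun x =>
    InnerProductSpace.toDual_symm_apply
  refine ⟨(f b)⁻¹ • (InnerProductSpace.toDual ℝ E3).symm f, fun x hx => ?_, ?_⟩
  · rw [real_inner_smul_left, hdual, inv_mul_le_iff₀ hfb, mul_one]
    exact hle x hx
  · rw [real_inner_smul_left, hdual, inv_mul_cancel₀ hfb.ne']

/-- Shell lemma. -/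
lemma shell {K : Set E3} (hK : IsCompact K) (hc : Convex ℝ K) {r₀ : ℝ} (hr₀ : 0 < r₀)
    (hball : closedBall 0 r₀ ⊆ K) {w x₁ : E3} (hs : SmoothAt K w x₁) {σ : ℝ} (hσ : 0 < σ)
    (hσ1 : σ ≤ 1) :
    ∃ m > 0, ∀ p ∈ K, ∀ q ∈ K, 2 * σ ≤ 1 - inner ℝ w p → 2 * σ ≤ 1 - inner ℝ w q →
      ∀ t, 0 < t → t < 1 →
        volume.real ((1 - t) • K + t • segment ℝ p q) ≤
          volume.real K - (1 - (1 - t * σ) ^ 3) * m := by
  obtain ⟨r, hr, hclose⟩ := smooth_close hK hr₀ hball hs hσ
  have hK0 : K ∈ 𝓝 (0 : E3) := Filter.mem_of_superset (closedBall_mem_nhds 0 hr₀) hball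
  have hcont : Continuous (gauge K) := continuous_gauge hc hK0
  have hKcl : closure K = K := hK.isClosed.closure_eq
  have hle1 : ∀ x, gauge K x ≤ 1 ↔ x ∈ K := fun x => by
    rw [gauge_le_one_iff_mem_closure hc hK0, hKcl]
  have hpos : ∀ x, x ≠ 0 → 0 < gauge K x := fun x hx => by
    have habs : Absorbent ℝ K := absorbent_nhds_zero hK0
    have hbd : Bornology.IsVonNBounded ℝ K := NormedSpace.isVonNBounded_of_isBounded ℝ hK.isBounded
    exact (gauge_pos habs hbd).2 hx
  have hx₁0 : x₁ ≠ 0 := by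
    intro h
    have := hs.2.2.1
    rw [h, inner_zero_right] at this
    exact zero_ne_one this
  have hgx₁ : gauge K x₁ = 1 := by
    apply le_antisymm ((hle1 _).2 hs.1)
    by_contra hcon
    push Not at hcon
    set g := gauge K x₁
    have hg0 : 0 ≤ g := gauge_nonneg _
    have hg' : 0 < (1 + g) / 2 := by linarith
    have hmem : ((1 + g) / 2)⁻¹ • x₁ ∈ K := by
      rw [← hle1, gauge_smul_of_nonneg (by positivity), smul_eq_mul, inv_mul_le_iff₀ hg', mul_one]
      change g ≤ (1 + g) / 2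
      linarith
    have := hs.2.1 _ hmem
    rw [inner_smul_right, hs.2.2.1, mul_one, inv_le_one₀ hg'] at this
    linarith
  let V : Set E3 := {X | X ≠ 0} ∩ ({X | gauge K X < 1} ∩
    {X | X ≠ 0} ∩ (fun X => (gauge K X)⁻¹ • X) ⁻¹' (ball x₁ r))
  have hVmem : ∀ X, X ∈ V ↔ X ≠ 0 ∧ gauge K X < 1 ∧ ‖(gauge K X)⁻¹ • X - x₁‖ < r := by
    intro X
    simp only [V, mem_inter_iff, mem_ofPred_eq, mem_preimage, mem_ball, dist_eq_norm]
    tauto
  have hVopen : IsOpen V := by
    apply isOpen_ne.inter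
    apply ContinuousOn.isOpen_inter_preimage _ _ isOpen_ball
    · intro X hX
      apply ContinuousAt.continuousWithinAt
      exact (hcont.continuousAt.inv₀ (hpos X hX.2).ne').smul continuousAt_id
    · exact (isOpen_lt hcont continuous_const).inter isOpen_ne
  have hVne : V.Nonempty := by
    refine ⟨(1 / 2 : ℝ) • x₁, (hVmem _).2 ⟨by simpa using hx₁0, ?_, ?_⟩⟩
    · rw [gauge_smul_of_nonneg (by norm_num), hgx₁]; norm_num
    · rw [gauge_smul_of_nonneg (by norm_num), hgx₁]; simp [hr]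
  have hVK : V ⊆ K := fun X hX => (hle1 X).1 ((hVmem X).1 hX).2.1.le
  have hVfin : volume V ≠ ⊤ := ((measure_mono hVK).trans_lt hK.measure_lt_top).ne
  have hm : 0 < volume.real V := by
    rw [Measure.real]
    exact ENNReal.toReal_pos (hVopen.measure_pos volume hVne).ne' hVfin
  have hscale : ∀ a : ℝ, 0 < a → ∀ X, (gauge K (a • X))⁻¹ • (a • X) = (gauge K X)⁻¹ • X := by
    intro a ha X
    rw [gauge_smul_of_nonneg ha.le, smul_eq_mul, smul_smul, mul_inv]
    congr 1
    field_simp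
  refine ⟨volume.real V, hm, fun p hp q hq hwp hwq t ht0 ht1 => ?_⟩
  set a := t * σ with ha
  have ha0 : 0 < a := by positivity
  have ha1 : a < 1 := by nlinarith
  have h1a : 0 < 1 - a := by linarith
  have hsubV : (1 - a) • V ⊆ V := by
    rintro _ ⟨X, hX, rfl⟩
    obtain ⟨h1, h2, h3⟩ := (hVmem X).1 hX
    simp only
    refine (hVmem _).2 ⟨by simp [h1, h1a.ne'], ?_, ?_⟩
    · rw [gauge_smul_of_nonneg h1a.le, smul_eq_mul]
      have := gauge_nonneg (s := K) X
      nlinarith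
    · rwa [hscale _ h1a]
  have hmiss : ∀ X ∈ V \ ((1 - a) • V), X ∉ (1 - t) • K + t • segment ℝ p q := by
    rintro X ⟨hXV, hXn⟩ hXL
    obtain ⟨h1, h2, h3⟩ := (hVmem X).1 hXV
    have hgX : 1 - a ≤ gauge K X := by
      by_contra hcon
      push Not at hcon
      apply hXn
      refine ⟨(1 - a)⁻¹ • X, (hVmem _).2 ⟨by simp [h1, h1a.ne'], ?_, ?_⟩, ?_⟩
      · rw [gauge_smul_of_nonneg (by positivity), smul_eq_mul, inv_mul_lt_iff₀ h1a, mul_one]
        exact hcon
      · rwa [hscale _ (by positivity)]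
      · simp only
        rw [smul_inv_smul₀ h1a.ne']
    have hgpos := hpos X h1
    set b := (gauge K X)⁻¹ • X with hb
    have hgb : gauge K b = 1 := by
      rw [hb, gauge_smul_of_nonneg (by positivity), smul_eq_mul, inv_mul_cancel₀ hgpos.ne']
    have hbK : b ∈ K := (hle1 b).1 hgb.le
    obtain ⟨w', hw', hw'b⟩ := exists_support hc hK0 hgb
    have hcl := hclose b hbK w' hw' hw'b h3
    have hXb : X = gauge K X • b := by rw [hb, smul_inv_smul₀ hgpos.ne']
    have hwX : inner ℝ w' X = gauge K X := by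
      conv_lhs => rw [hXb]
      rw [inner_smul_right, hw'b, mul_one]
    obtain ⟨_, ⟨k, hk, rfl⟩, _, ⟨z, hz, rfl⟩, hsum⟩ := hXL
    have hkw : inner ℝ w' k ≤ 1 := hw' k hk
    have hpw : inner ℝ w' p < 1 - σ := by
      have := (abs_lt.1 (hcl p hp)).2
      linarith
    have hqw : inner ℝ w' q < 1 - σ := by
      have := (abs_lt.1 (hcl q hq)).2
      linarith
    have hzw : inner ℝ w' z < 1 - σ := by
      obtain ⟨α, β, hα, hβ, hαβ, rfl⟩ := hz
      rw [inner_add_right, inner_smul_right, inner_smul_right]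
      rcases eq_or_lt_of_le hα with h | h
      · rw [← h] at hαβ ⊢
        have : β = 1 := by linarith
        rw [this]; linarith
      · nlinarith
    have : inner ℝ w' X < 1 - a := by
      rw [← hsum]
      simp only [inner_add_right, inner_smul_right]
      have e1 : (1 - t) * inner ℝ w' k ≤ (1 - t) * 1 := by
        apply mul_le_mul_of_nonneg_left hkw; linarith
      have e2 : t * inner ℝ w' z < t * (1 - σ) := by
        apply mul_lt_mul_of_pos_left hzw ht0
      rw [ha]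
      linarith
    linarith
  have hLK : (1 - t) • K + t • segment ℝ p q ⊆ K := by
    rintro _ ⟨_, ⟨k, hk, rfl⟩, _, ⟨z, hz, rfl⟩, rfl⟩
    exact hc hk (hc.segment_subset hp hq hz) (by linarith) ht0.le (by ring)
  have hS : MeasurableSet (V \ ((1 - a) • V)) :=
    hVopen.measurableSet.diff (hVopen.smul₀ h1a.ne').measurableSet
  have hSK : V \ ((1 - a) • V) ⊆ K := sdiff_subset.trans hVK
  have hKfin : volume K ≠ ⊤ := hK.measure_lt_top.ne
  calc volume.real ((1 - t) • K + t • segment ℝ p q)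
      ≤ volume.real (K \ (V \ ((1 - a) • V))) := by
        apply measureReal_mono _ ((measure_mono sdiff_subset).trans_lt hK.measure_lt_top).ne
        intro X hX
        exact ⟨hLK hX, fun h => hmiss X h hX⟩
    _ = volume.real K - volume.real (V \ ((1 - a) • V)) :=
        measureReal_sdiff hSK hS hKfin
    _ = volume.real K - (volume.real V - volume.real ((1 - a) • V)) := by
        rw [measureReal_sdiff hsubV (hVopen.smul₀ h1a.ne').measurableSet hVfin]
    _ = volume.real K - (1 - (1 - a) ^ 3) * volume.real V := by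
        have : volume.real ((1 - a) • V) = (1 - a) ^ 3 * volume.real V := by
          rw [Measure.real, Measure.addHaar_smul, ENNReal.toReal_mul, Measure.real]
          congr 1
          simp [abs_of_pos h1a]
          positivity
        rw [this]; ring

end Vale.Agent.Lib.P243
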