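import Vale.Agent.Lib.P243.Shell

open MeasureTheory Set Module Metric
open scoped ENNReal Pointwise NNReal Topology

namespace Vale.Agent.Lib.P243

lemma smooth_of_ball {K : Set E3} (hc : Convex ℝ K) (hK0 : K ∈ 𝓝 (0 : E3)) {y x₁ : E3} {ρ : ℝ}
    (hρ : 0 < ρ) (hball : closedBall y ρ ⊆ K) (hx : dist y x₁ = ρ) (hg : gauge K x₁ = 1) :
    ∃ w, SmoothAt K w x₁ ∧ 1 - inner ℝ w y = ρ * ‖w‖ := by
  have hx₁K : x₁ ∈ K := hball (by rw [mem_closedBall, dist_comm, hx])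
  have hnorm : ‖x₁ - y‖ = ρ := by rw [← hx, dist_comm, dist_eq_norm]
  have key : ∀ w ∈ polarSet K, inner ℝ w x₁ = 1 →
      inner ℝ w (x₁ - y) = ρ * ‖w‖ ∧ ρ • w = ‖w‖ • (x₁ - y) := by
    intro w hw hw1
    have hw0 : w ≠ 0 := by
      intro h; rw [h, inner_zero_left] at hw1; exact zero_ne_one hw1
    have hn : 0 < ‖w‖ := norm_pos_iff.2 hw0
    have h1 : y + (ρ / ‖w‖) • w ∈ K := hball (by
      rw [mem_closedBall, dist_eq_norm, add_sub_cancel_left, norm_smul,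
        Real.norm_of_nonneg (by positivity), div_mul_cancel₀ _ hn.ne'])
    have h2 := hw _ h1
    rw [inner_add_right, inner_smul_right, real_inner_self_eq_norm_sq] at h2
    have h3 : ρ / ‖w‖ * ‖w‖ ^ 2 = ρ * ‖w‖ := by field_simp
    have h4 : inner ℝ w (x₁ - y) ≤ ‖w‖ * ‖x₁ - y‖ := real_inner_le_norm _ _
    have h5 : inner ℝ w (x₁ - y) = ρ * ‖w‖ := by
      apply le_antisymm
      · rw [hnorm] at h4; linarith
      · rw [inner_sub_right, hw1]; linarith
    refine ⟨h5, ?_⟩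
    have h6 : inner ℝ w (x₁ - y) = ‖w‖ * ‖x₁ - y‖ := by rw [h5, hnorm]; ring
    have h7 := inner_eq_norm_mul_iff_real.1 h6
    rwa [hnorm] at h7
  obtain ⟨w, hw, hw1⟩ := exists_support hc hK0 hg
  obtain ⟨k1, k2⟩ := key w hw hw1
  refine ⟨w, ⟨hx₁K, hw, hw1, fun w' hw' hw'1 => ?_⟩, ?_⟩
  · obtain ⟨k1', k2'⟩ := key w' hw' hw'1
    have e1 : ρ * inner ℝ w x₁ = ‖w‖ * inner ℝ (x₁ - y) x₁ := by
      rw [← real_inner_smul_left, k2, real_inner_smul_left]
    have e2 : ρ * inner ℝ w' x₁ = ‖w'‖ * inner ℝ (x₁ - y) x₁ := by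
      rw [← real_inner_smul_left, k2', real_inner_smul_left]
    rw [hw1, mul_one] at e1
    rw [hw'1, mul_one] at e2
    have hi : inner ℝ (x₁ - y) x₁ ≠ 0 := by
      intro h; rw [h, mul_zero] at e1; exact hρ.ne' e1
    have e3 : ‖w'‖ = ‖w‖ := mul_right_cancel₀ hi (e2.symm.trans e1)
    have e4 : ρ • w' = ρ • w := by rw [k2', k2, e3]
    exact smul_right_injective _ hρ.ne' e4
  · rw [inner_sub_right, hw1] at k1
    exact k1

lemma smooth_separates {K : Set E3} (hK : IsCompact K) (hc : Convex ℝ K) {r₀ : ℝ} (hr₀ : 0 < r₀)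
    (hball : closedBall 0 r₀ ⊆ K) {x : E3} (hx : x ∉ K) :
    ∃ w x₁, SmoothAt K w x₁ ∧ 1 < inner ℝ w x := by
  have hK0 : K ∈ 𝓝 (0 : E3) := Filter.mem_of_superset (closedBall_mem_nhds 0 hr₀) hball
  have hKcl : closure K = K := hK.isClosed.closure_eq
  have hle1 : ∀ x, gauge K x ≤ 1 ↔ x ∈ K := fun x => by
    rw [gauge_le_one_iff_mem_closure hc hK0, hKcl]
  have hint : ∀ x, gauge K x < 1 ↔ x ∈ interior K := fun x =>
    gauge_lt_one_iff_mem_interior hc hK0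
  have hg : 1 < gauge K x := by
    by_contra h
    push Not at h
    exact hx ((hle1 x).1 h)
  have hx0 : x ≠ 0 := by
    intro h
    apply hx
    rw [h]
    exact hball (mem_closedBall_self hr₀.le)
  have hxn : 0 < ‖x‖ := norm_pos_iff.2 hx0
  set g := gauge K x with hgdef
  have hg0 : 0 < g := by linarith
  set δ := min (g⁻¹ / 2) ((1 - g⁻¹) * r₀ / (2 * ‖x‖)) with hδ
  have hginv : g⁻¹ < 1 := inv_lt_one_of_one_lt₀ hg
  have hδ0 : 0 < δ := by
    rw [hδ]
    apply lt_min (by positivity)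
    have : 0 < 1 - g⁻¹ := by linarith
    positivity
  set s := g⁻¹ - δ with hs
  have hs0 : 0 < s := by
    have : δ ≤ g⁻¹ / 2 := min_le_left _ _
    have : 0 < g⁻¹ := by positivity
    linarith
  have hδx : δ * ‖x‖ ≤ (1 - g⁻¹) * r₀ / 2 := by
    have : δ ≤ (1 - g⁻¹) * r₀ / (2 * ‖x‖) := min_le_right _ _
    calc δ * ‖x‖ ≤ (1 - g⁻¹) * r₀ / (2 * ‖x‖) * ‖x‖ := by gcongr
      _ = (1 - g⁻¹) * r₀ / 2 := by field_simp
  have hys : s • x ∈ interior K := by
    rw [← hint, gauge_smul_of_nonneg hs0.le, smul_eq_mul]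
    calc s * g < g⁻¹ * g := by
          apply mul_lt_mul_of_pos_right _ hg0
          rw [hs]; linarith
      _ = 1 := inv_mul_cancel₀ hg0.ne'
  have hZc : IsClosed (interior K)ᶜ := isOpen_interior.isClosed_compl
  have hxZ : g⁻¹ • x ∈ (interior K)ᶜ := by
    rw [mem_compl_iff, ← hint, gauge_smul_of_nonneg (by positivity), smul_eq_mul,
      inv_mul_cancel₀ hg0.ne']
    exact lt_irrefl 1
  obtain ⟨z, hz, hzd⟩ := hZc.exists_infDist_eq_dist ⟨_, hxZ⟩ (s • x)
  set ρ := infDist (s • x) (interior K)ᶜ with hρ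
  have hρ0 : 0 < ρ := by
    rw [hρ, ← hZc.notMem_iff_infDist_pos ⟨_, hxZ⟩]
    simpa using hys
  have hsubb : ball (s • x) ρ ⊆ interior K := by
    intro u hu
    by_contra hcon
    have : ρ ≤ dist (s • x) u := infDist_le_dist_of_mem hcon
    rw [mem_ball, dist_comm] at hu
    linarith
  have hsubcb : closedBall (s • x) ρ ⊆ K := by
    rw [← closure_ball _ hρ0.ne', ← hKcl]
    exact closure_mono (hsubb.trans interior_subset)
  have hzK : z ∈ K := hsubcb (by rw [mem_closedBall, dist_comm, ← hzd])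
  have hgz : gauge K z = 1 := by
    apply le_antisymm ((hle1 z).2 hzK)
    by_contra hcon
    push Not at hcon
    exact hz ((hint z).1 hcon)
  obtain ⟨w, hw, hwy⟩ := smooth_of_ball hc hK0 hρ0 hsubcb hzd.symm hgz
  refine ⟨w, z, hw, ?_⟩
  by_contra hcon
  push Not at hcon
  have h1 : 1 - s ≤ ρ * ‖w‖ := by
    rw [← hwy, inner_smul_right]
    nlinarith
  have h2 : ρ ≤ δ * ‖x‖ := by
    have : ρ ≤ dist (s • x) (g⁻¹ • x) := infDist_le_dist_of_mem hxZ
    rw [dist_eq_norm, ← sub_smul, norm_smul, hs] at this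
    calc ρ ≤ ‖g⁻¹ - δ - g⁻¹‖ * ‖x‖ := this
      _ = δ * ‖x‖ := by
        congr 1
        rw [Real.norm_eq_abs, show g⁻¹ - δ - g⁻¹ = -δ by ring, abs_neg, abs_of_pos hδ0]
  have h3 := polarSet_norm_le hr₀ hball hw.2.1
  have h4 : ρ * ‖w‖ ≤ (1 - g⁻¹) * r₀ / 2 * r₀⁻¹ := by
    have : ρ ≤ (1 - g⁻¹) * r₀ / 2 := h2.trans hδx
    have h0 : 0 ≤ (1 - g⁻¹) * r₀ / 2 := hρ0.le.trans this
    gcongr
  have h5 : (1 - g⁻¹) * r₀ / 2 * r₀⁻¹ = (1 - g⁻¹) / 2 := by field_simp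
  have h6 : 0 < 1 - g⁻¹ := by linarith
  rw [hs] at h1
  linarith

/-- There are three linearly independent smooth supporting functionals. -/
lemma three_smooth {K : Set E3} (hK : IsCompact K) (hc : Convex ℝ K) {r₀ : ℝ} (hr₀ : 0 < r₀)
    (hball : closedBall 0 r₀ ⊆ K) :
    ∃ w : Fin 3 → E3, LinearIndependent ℝ w ∧ ∀ i, ∃ x₁, SmoothAt K (w i) x₁ := by
  let S : Set E3 := {w | ∃ x₁, SmoothAt K w x₁}
  have hspan : Submodule.span ℝ S = ⊤ := by
    rw [← Submodule.orthogonal_eq_bot_iff, Submodule.eq_bot_iff]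
    intro v hv
    by_contra hv0
    have hvS : ∀ w ∈ S, inner ℝ w v = 0 := fun w hw =>
      (Submodule.mem_orthogonal _ _).1 hv w (Submodule.subset_span hw)
    obtain ⟨R, hR⟩ := hK.isBounded.exists_norm_le
    have hvn : 0 < ‖v‖ := norm_pos_iff.2 hv0
    have hnot : ((|R| + 1) / ‖v‖) • v ∉ K := by
      intro h
      have := hR _ h
      rw [norm_smul, Real.norm_of_nonneg (by positivity), div_mul_cancel₀ _ hvn.ne'] at this
      have := le_abs_self R
      linarith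
    obtain ⟨w, x₁, hw, hw1⟩ := smooth_separates hK hc hr₀ hball hnot
    rw [inner_smul_right, hvS w ⟨x₁, hw⟩, mul_zero] at hw1
    linarith
  obtain ⟨b, hbS, hbspan, hbli⟩ := exists_linearIndependent ℝ S
  rw [hspan] at hbspan
  let B : Basis b ℝ E3 := Basis.mk hbli (by rw [Subtype.range_coe, hbspan])
  have : Fintype b := FiniteDimensional.fintypeBasisIndex B
  have hcard : Fintype.card b = 3 := by
    rw [← finrank_eq_card_basis B]; simp
  let e : Fin 3 ≃ b := (Fintype.equivFinOfCardEq hcard).symm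
  exact ⟨fun i => (e i : E3), hbli.comp e e.injective, fun i => hbS (e i).2⟩

end Vale.Agent.Lib.P243
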