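import Vale.Agent.Lib.P243.Segment

open MeasureTheory Set Module
open scoped ENNReal Pointwise NNReal

namespace Vale.Agent.Lib.P243

set_option linter.unusedSectionVars false

/-- Euclidean three-space. -/
abbrev E3 := EuclideanSpace ℝ (Fin 3)
/-- The Euclidean plane. -/
abbrev E2 := EuclideanSpace ℝ (Fin 2)

lemma exists_split (P : E3 →ₗ[ℝ] E2) (hP : Function.Surjective P) :
    ∃ (T : E3 ≃L[ℝ] E2 × ℝ) (c : ℝ), 0 < c ∧ (∀ x, (T x).1 = P x) ∧
      ∀ S : Set E3, volume S =
        ENNReal.ofReal c * ((volume : Measure E2).prod (volume : Measure ℝ)) (T '' S) := by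
  have hfin : finrank ℝ (LinearMap.ker P) = 1 := by
    have h := LinearMap.finrank_range_add_finrank_ker P
    rw [LinearMap.range_eq_top.2 hP, finrank_top] at h
    simp only [finrank_euclideanSpace, Fintype.card_fin] at h
    omega
  obtain ⟨⟨v, hv⟩, hv0, hspan⟩ := finrank_eq_one_iff'.1 hfin
  have hv0' : v ≠ 0 := fun h => hv0 (by ext1; exact h)
  let lam : E3 →ₗ[ℝ] ℝ := (InnerProductSpace.toDual ℝ E3 v).toLinearMap
  have hlam : ∀ x, lam x = inner ℝ v x := fun x => by
    simp [lam, InnerProductSpace.toDual_apply_apply]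
  let L : E3 →ₗ[ℝ] E2 × ℝ := P.prod lam
  have hLinj : Function.Injective L := by
    rw [← LinearMap.ker_eq_bot, LinearMap.ker_eq_bot']
    intro x hx
    have h1 : P x = 0 := congrArg Prod.fst hx
    have h2 : lam x = 0 := congrArg Prod.snd hx
    obtain ⟨a, ha⟩ := hspan ⟨x, LinearMap.mem_ker.2 h1⟩
    have ha' : a • v = x := congrArg Subtype.val ha
    rw [hlam, ← ha', inner_smul_right, real_inner_self_eq_norm_sq] at h2
    have : a = 0 := by
      rcases mul_eq_zero.1 h2 with h | h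
      · exact h
      · exact absurd (by simpa using h) hv0'
    rw [← ha', this, zero_smul]
  have hdim : finrank ℝ E3 = finrank ℝ (E2 × ℝ) := by
    simp
  let Te : E3 ≃ₗ[ℝ] E2 × ℝ := LinearMap.linearEquivOfInjective L hLinj hdim
  let T : E3 ≃L[ℝ] E2 × ℝ := Te.toContinuousLinearEquiv
  have hTL : ∀ x, T x = L x := fun x => by
    simp [T, Te]
  let ν : Measure (E2 × ℝ) := (volume : Measure E2).prod (volume : Measure ℝ)
  let μ' : Measure (E2 × ℝ) := Measure.map T (volume : Measure E3)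
  have : μ'.IsAddHaarMeasure := T.isAddHaarMeasure_map _
  obtain ⟨c, hpos, hμ⟩ : ∃ c : ℝ≥0, 0 < c ∧ μ' = c • ν :=
    ⟨μ'.addHaarScalarFactor ν, Measure.addHaarScalarFactor_pos_of_isAddHaarMeasure μ' ν,
      Measure.isAddLeftInvariant_eq_smul μ' ν⟩
  refine ⟨T, (c : ℝ), by exact_mod_cast hpos, fun x => by
    rw [hTL]; rfl, fun S => ?_⟩
  have h1 : μ' (T '' S) = volume S := by
    have : μ' (T '' S) = volume (T ⁻¹' (T '' S)) :=
      T.toHomeomorph.toMeasurableEquiv.map_apply (μ := (volume : Measure E3)) (T '' S)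
    rw [this, T.injective.preimage_image]
  rw [← h1, hμ]
  rw [Measure.coe_nnreal_smul_apply, ENNReal.ofReal_coe_nnreal]

end Vale.Agent.Lib.P243
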