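import Vale.Agent.Lib.P243.Planar
import Vale.Agent.Lib.P243.Shell

open MeasureTheory Set Module Metric
open scoped ENNReal Pointwise NNReal Topology

namespace Vale.Agent.Lib.P243

lemma image_nhds {K : Set E3} (hK0 : K ∈ 𝓝 (0 : E3)) {P : E3 →ₗ[ℝ] E2}
    (hP : Function.Surjective P) : P '' K ∈ 𝓝 (0 : E2) := by
  have hopen : IsOpenMap P := (LinearMap.toContinuousLinearMap P).isOpenMap hP
  have h := hopen.image_mem_nhds hK0
  rwa [map_zero] at h

/-- The basic volume inequality for chords of centrally symmetric bodies. -/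
lemma sym_chord {K : Set E3} (hK : IsCompact K) (hcv : Convex ℝ K) (hsym : ∀ x ∈ K, -x ∈ K)
    (hK0 : K ∈ 𝓝 (0 : E3)) {P : E3 →ₗ[ℝ] E2} (hP : Function.Surjective P)
    {T : E3 ≃L[ℝ] E2 × ℝ} {c : ℝ} (hc0 : 0 < c) (hTP : ∀ x, (T x).1 = P x)
    (hvol : ∀ S : Set E3, volume S =
        ENNReal.ofReal c * ((volume : Measure E2).prod (volume : Measure ℝ)) (T '' S))
    {y : E2} {a b : ℝ} (hab : a < b) (hfib : Prod.mk y ⁻¹' (T '' K) = Icc a b) :
    ENNReal.ofReal (c * (b - a) * (1 / 3 + gauge (P '' K) y / 6)) * volume (P '' K) ≤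
      volume K := by
  have hTK : IsCompact (T '' K) := hK.image T.continuous
  have hTKc : Convex ℝ (T '' K) := hcv.linear_image (T : E3 →ₗ[ℝ] E2 × ℝ)
  have hPcont : Continuous P := LinearMap.continuous_of_finiteDimensional P
  set A : Set E2 := P '' K with hAdef
  have hA : IsCompact A := hK.image hPcont
  have hAc : Convex ℝ A := hcv.linear_image P
  have hAs : ∀ x ∈ A, -x ∈ A := by
    rintro _ ⟨x, hx, rfl⟩
    exact ⟨-x, hsym x hx, map_neg P x⟩
  have hA0 : A ∈ 𝓝 (0 : E2) := image_nhds hK0 hP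
  set r := gauge A y with hr
  have hr0 : 0 ≤ r := gauge_nonneg _
  have hba : 0 < b - a := by linarith
  have hmemT : ∀ u v, (u, v) ∈ T '' K → u ∈ A := by
    rintro u v ⟨x, hx, hxe⟩
    refine ⟨x, hx, ?_⟩
    rw [← hTP, hxe]
  have hAmemT : ∀ u ∈ A, ∃ v, (u, v) ∈ T '' K := by
    rintro _ ⟨x, hx, rfl⟩
    refine ⟨(T x).2, x, hx, ?_⟩
    ext1
    · exact hTP x
    · rfl
  have hsymT : ∀ z ∈ T '' K, -z ∈ T '' K := by
    rintro _ ⟨x, hx, rfl⟩
    exact ⟨-x, hsym x hx, map_neg T x⟩
  have hya : (y, a) ∈ T '' K := by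
    have : a ∈ Prod.mk y ⁻¹' (T '' K) := by rw [hfib]; exact ⟨le_rfl, hab.le⟩
    exact this
  have hyb : (y, b) ∈ T '' K := by
    have : b ∈ Prod.mk y ⁻¹' (T '' K) := by rw [hfib]; exact ⟨hab.le, le_rfl⟩
    exact this
  -- the set of pairs
  let Φ : ℝ × E2 × E2 → E2 × ℝ := fun z => ((1 - z.1) • z.2.1 + z.1 • z.2.2, z.1)
  have hΦ : Continuous Φ := by fun_prop
  have hseg : IsCompact (segment ℝ (-y) y) := by
    rw [segment_eq_image_lineMap]
    exact isCompact_Icc.image AffineMap.lineMap_continuous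
  let D : Set (E2 × ℝ) := Φ '' (Icc 0 1 ×ˢ A ×ˢ segment ℝ (-y) y)
  have hD : IsCompact D := (isCompact_Icc.prod (hA.prod hseg)).image hΦ
  have hDm : MeasurableSet D := hD.isClosed.measurableSet
  have hlow : ∀ η : E2, ENNReal.ofReal (b - a) * volume (Prod.mk η ⁻¹' D) ≤
      volume (Prod.mk η ⁻¹' (T '' K)) := by
    intro η
    rcases (Prod.mk η ⁻¹' D).eq_empty_or_nonempty with hem | ⟨t₀, ht₀⟩
    · rw [hem, measure_empty, mul_zero]; exact zero_le
    have hstep : ∀ t, t ∈ Prod.mk η ⁻¹' D → 0 ≤ t ∧ ∃ v, (η, v) ∈ T '' K ∧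
        (η, v + t * (b - a)) ∈ T '' K := by
      rintro t ⟨⟨t', α, ζ⟩, ⟨ht', hα, hζ⟩, hz⟩
      simp only [Φ, Prod.mk.injEq] at hz
      obtain ⟨hη, rfl⟩ := hz
      simp only at ht' hα hζ
      obtain ⟨τ, hτ⟩ := hAmemT α hα
      obtain ⟨θ₁, θ₂, hθ₁, hθ₂, hθ, rfl⟩ := hζ
      have h1 : (θ₁ • (-y) + θ₂ • y, θ₁ * (-b) + θ₂ * a) ∈ T '' K := by
        have := hTKc (hsymT _ hyb) hya hθ₁ hθ₂ hθ
        simpa using this
      have h2 : (θ₁ • (-y) + θ₂ • y, θ₁ * (-a) + θ₂ * b) ∈ T '' K := by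
        have := hTKc (hsymT _ hya) hyb hθ₁ hθ₂ hθ
        simpa using this
      refine ⟨ht'.1, (1 - t') * τ + t' * (θ₁ * (-b) + θ₂ * a), ?_, ?_⟩
      · have := hTKc hτ h1 (by linarith [ht'.2] : 0 ≤ 1 - t') ht'.1 (by ring)
        simp only [Prod.smul_mk, Prod.mk_add_mk, smul_eq_mul] at this
        rwa [hη] at this
      · have := hTKc hτ h2 (by linarith [ht'.2] : 0 ≤ 1 - t') ht'.1 (by ring)
        simp only [Prod.smul_mk, Prod.mk_add_mk, smul_eq_mul] at this
        rw [hη] at this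
        convert this using 2
        have : θ₁ = 1 - θ₂ := by linarith
        rw [this]
        ring
    have hηA : η ∈ Prod.fst '' (T '' K) := by
      obtain ⟨_, v, hv, _⟩ := hstep t₀ ht₀
      exact ⟨(η, v), hv, rfl⟩
    obtain ⟨α, β, hαβ, hf⟩ := fiber_eq_Icc hTK hTKc hηA
    have hsub : Prod.mk η ⁻¹' D ⊆ Icc 0 ((β - α) / (b - a)) := by
      intro t ht
      obtain ⟨ht0, v, hv1, hv2⟩ := hstep t ht
      have e1 : v ∈ Icc α β := by rw [← hf]; exact hv1
      have e2 : v + t * (b - a) ∈ Icc α β := by rw [← hf]; exact hv2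
      refine ⟨ht0, ?_⟩
      rw [le_div_iff₀ hba]
      linarith [e1.1, e2.2]
    rw [hf, Real.volume_Icc]
    calc ENNReal.ofReal (b - a) * volume (Prod.mk η ⁻¹' D)
        ≤ ENNReal.ofReal (b - a) * volume (Icc 0 ((β - α) / (b - a))) := by gcongr
      _ = ENNReal.ofReal (β - α) := by
        rw [Real.volume_Icc, ← ENNReal.ofReal_mul hba.le]
        congr 1
        field_simp
        ring
  have hupp : ∀ t ∈ Ico (0 : ℝ) 1, ENNReal.ofReal ((1 - t) ^ 2 + t * (1 - t) * r) * volume A ≤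
      volume ((fun η => (η, t)) ⁻¹' D) := by
    intro t ht
    refine (planar_combo hA hAc hAs hA0 y ht.1 ht.2).trans (measure_mono ?_)
    rintro _ ⟨_, ⟨α, hα, rfl⟩, _, ⟨ζ, hζ, rfl⟩, rfl⟩
    exact ⟨(t, α, ζ), ⟨⟨ht.1, ht.2.le⟩, hα, hζ⟩, rfl⟩
  have hTKm : MeasurableSet (T '' K) := hTK.isClosed.measurableSet
  have hint : ∫⁻ t in Ico (0 : ℝ) 1, ENNReal.ofReal ((1 - t) ^ 2 + t * (1 - t) * r) =
      ENNReal.ofReal (1 / 3 + r / 6) := by
    rw [← ofReal_integral_eq_lintegral_ofReal]
    · congr 1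
      rw [integral_Ico_eq_integral_Ioc, ← intervalIntegral.integral_of_le zero_le_one]
      have : ∀ t : ℝ, (1 - t) ^ 2 + t * (1 - t) * r = 1 + (r - 2) * t + (1 - r) * t ^ 2 :=
        fun t => by ring
      simp_rw [this]
      have e1 : ∫ t in (0 : ℝ)..1, (r - 2) * t = (r - 2) * (1 / 2) := by
        rw [intervalIntegral.integral_const_mul, integral_id]; norm_num
      have e2 : ∫ t in (0 : ℝ)..1, (1 - r) * t ^ 2 = (1 - r) * (1 / 3) := by
        rw [intervalIntegral.integral_const_mul, integral_pow]; norm_num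
      have e3 : ∫ _ in (0 : ℝ)..1, (1 : ℝ) = 1 := by
        rw [intervalIntegral.integral_const]; norm_num
      rw [intervalIntegral.integral_add, intervalIntegral.integral_add, e1, e2, e3]
      · ring
      all_goals exact Continuous.intervalIntegrable (by fun_prop) _ _
    · exact (Continuous.integrableOn_Icc (by fun_prop)).mono_set Ico_subset_Icc_self
    · rw [Filter.EventuallyLE, ae_restrict_iff' measurableSet_Ico]
      refine Filter.Eventually.of_forall fun t ht => ?_
      have h1 : 0 ≤ 1 - t := by linarith [ht.2]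
      have h2 := ht.1
      simp only [Pi.zero_apply]
      positivity
  have hmeas : Measurable fun t : ℝ => ENNReal.ofReal ((1 - t) ^ 2 + t * (1 - t) * r) := by
    fun_prop
  calc ENNReal.ofReal (c * (b - a) * (1 / 3 + r / 6)) * volume A
      = ENNReal.ofReal c * (ENNReal.ofReal (b - a) *
          (ENNReal.ofReal (1 / 3 + r / 6) * volume A)) := by
        rw [ENNReal.ofReal_mul (by positivity), ENNReal.ofReal_mul hc0.le]
        ring
    _ = ENNReal.ofReal c * (ENNReal.ofReal (b - a) *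
          ∫⁻ t in Ico (0 : ℝ) 1, ENNReal.ofReal ((1 - t) ^ 2 + t * (1 - t) * r) * volume A) := by
        rw [lintegral_mul_const _ hmeas, hint]
    _ ≤ ENNReal.ofReal c * (ENNReal.ofReal (b - a) *
          ∫⁻ t in Ico (0 : ℝ) 1, volume ((fun η => (η, t)) ⁻¹' D)) := by
        gcongr ENNReal.ofReal c * (ENNReal.ofReal (b - a) * ?_)
        exact setLIntegral_mono' measurableSet_Ico hupp
    _ ≤ ENNReal.ofReal c * (ENNReal.ofReal (b - a) *
          ∫⁻ t, volume ((fun η => (η, t)) ⁻¹' D)) := by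
        gcongr
        exact Measure.restrict_le_self
    _ = ENNReal.ofReal c * (ENNReal.ofReal (b - a) *
          ((volume : Measure E2).prod (volume : Measure ℝ)) D) := by
        rw [Measure.prod_apply_symm hDm]
    _ = ENNReal.ofReal c * (ENNReal.ofReal (b - a) *
          ∫⁻ η, volume (Prod.mk η ⁻¹' D)) := by
        rw [Measure.prod_apply hDm]
    _ = ENNReal.ofReal c * ∫⁻ η, ENNReal.ofReal (b - a) * volume (Prod.mk η ⁻¹' D) := by
        rw [lintegral_const_mul _ (measurable_measure_prodMk_left hDm)]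
    _ ≤ ENNReal.ofReal c * ∫⁻ η, volume (Prod.mk η ⁻¹' (T '' K)) := by
        gcongr with η
        exact hlow η
    _ = volume K := by
        rw [hvol K, Measure.prod_apply hTKm]

/-- The mean of a convex function which is at most `p` and `q` at the ends. -/
lemma integral_le_trapezoid {G : ℝ → ℝ} (hG : Continuous G) {u v p q : ℝ} (huv : u ≤ v)
    (h : ∀ s ∈ Icc u v, G s + G (u + v - s) ≤ p + q) :
    ∫ s in u..v, G s ≤ (v - u) * ((p + q) / 2) := by
  have h1 : ∫ s in u..v, G (u + v - s) = ∫ s in u..v, G s := by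
    rw [intervalIntegral.integral_comp_sub_left (fun s => G s) (u + v)]
    congr 1 <;> ring
  have h2 : ∫ s in u..v, (G s + G (u + v - s)) ≤ ∫ _ in u..v, (p + q) := by
    apply intervalIntegral.integral_mono_on huv
    · exact Continuous.intervalIntegrable (by fun_prop) _ _
    · exact Continuous.intervalIntegrable (by fun_prop) _ _
    · exact h
  rw [intervalIntegral.integral_add (Continuous.intervalIntegrable (by fun_prop) _ _)
    (Continuous.intervalIntegrable (by fun_prop) _ _), h1, intervalIntegral.integral_const,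
    smul_eq_mul] at h2
  linarith

/-- The mean of the gauge over a chord. -/
lemma sym_mean {K : Set E3} (hK : IsCompact K) (hcv : Convex ℝ K)
    (hK0 : K ∈ 𝓝 (0 : E3)) {P : E3 →ₗ[ℝ] E2} (hP : Function.Surjective P)
    {T : E3 ≃L[ℝ] E2 × ℝ} (hTP : ∀ x, (T x).1 = P x)
    {y : E2} (hy : y ∈ P '' K) {a b : ℝ} (hab : a ≤ b)
    (hfib : Prod.mk y ⁻¹' (T '' K) = Icc a b) :
    ∫ s in a..b, gauge K (T.symm (y, s)) ≤ (b - a) * ((1 + gauge (P '' K) y) / 2) := by
  have hcont : Continuous (gauge K) := continuous_gauge hcv hK0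
  have hPcont : Continuous P := LinearMap.continuous_of_finiteDimensional P
  set A : Set E2 := P '' K with hAdef
  have hA : IsCompact A := hK.image hPcont
  have hAc : Convex ℝ A := hcv.linear_image P
  have hA0 : A ∈ 𝓝 (0 : E2) := image_nhds hK0 hP
  set r := gauge A y with hr
  have hr0 : 0 ≤ r := gauge_nonneg _
  have hr1 : r ≤ 1 := gauge_le_one_of_mem hy
  have hle1 : ∀ x, gauge K x ≤ 1 ↔ x ∈ K := fun x => by
    rw [gauge_le_one_iff_mem_closure hcv hK0, hK.isClosed.closure_eq]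
  have hmem : ∀ s, s ∈ Icc a b ↔ T.symm (y, s) ∈ K := by
    intro s
    rw [← hfib]
    constructor
    · rintro ⟨x, hx, hxe⟩
      rw [← hxe, T.symm_apply_apply]
      exact hx
    · intro h
      exact ⟨_, h, T.apply_symm_apply _⟩
  obtain ⟨z, hzy, hzr⟩ : ∃ z : E3, P z = y ∧ gauge K z ≤ r := by
    rcases eq_or_lt_of_le hr0 with h | h
    · have hy0 : y = 0 := by
        by_contra hne
        have habs : Absorbent ℝ A := absorbent_nhds_zero hA0
        have hbd : Bornology.IsVonNBounded ℝ A :=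
          NormedSpace.isVonNBounded_of_isBounded ℝ hA.isBounded
        have := (gauge_pos habs hbd).2 hne
        linarith
      refine ⟨0, by rw [hy0, map_zero], ?_⟩
      rw [gauge_zero, ← h]
    · have hmemA : r⁻¹ • y ∈ A := by
        have h1 : gauge A (r⁻¹ • y) ≤ 1 := by
          rw [gauge_smul_of_nonneg (by positivity), smul_eq_mul, ← hr, inv_mul_cancel₀ h.ne']
        rwa [gauge_le_one_iff_mem_closure hAc hA0, hA.isClosed.closure_eq] at h1
      obtain ⟨k, hk, hke⟩ := hmemA
      refine ⟨r • k, by rw [map_smul, hke, smul_inv_smul₀ h.ne'], ?_⟩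
      rw [gauge_smul_of_nonneg hr0, smul_eq_mul]
      have : gauge K k ≤ 1 := gauge_le_one_of_mem hk
      nlinarith
  obtain ⟨m, hm⟩ : ∃ m, z = T.symm (y, m) := by
    refine ⟨(T z).2, ?_⟩
    apply T.injective
    rw [T.apply_symm_apply]
    ext1
    · rw [hTP, hzy]
    · rfl
  have hmab : m ∈ Icc a b := by
    rw [hmem, ← hm, ← hle1]
    exact hzr.trans hr1
  set G : ℝ → ℝ := fun s => gauge K (T.symm (y, s)) with hG
  have hGc : Continuous G := hcont.comp (T.symm.continuous.comp (by fun_prop))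
  have hGa : G a ≤ 1 := (hle1 _).2 ((hmem a).1 ⟨le_rfl, hab⟩)
  have hGb : G b ≤ 1 := (hle1 _).2 ((hmem b).1 ⟨hab, le_rfl⟩)
  have hGm : G m ≤ r := by simp only [hG]; rw [← hm]; exact hzr
  have hconv : ∀ (s₁ s₂ α β : ℝ), 0 ≤ α → 0 ≤ β → α + β = 1 →
      G (α * s₁ + β * s₂) ≤ α * G s₁ + β * G s₂ := by
    intro s₁ s₂ α β hα hβ hαβ
    have e : T.symm (y, α * s₁ + β * s₂) = α • T.symm (y, s₁) + β • T.symm (y, s₂) := by
      rw [← map_smul, ← map_smul, ← map_add]
      congr 1
      ext1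
      · simp only [Prod.smul_mk, Prod.mk_add_mk, ← add_smul, hαβ, one_smul]
      · simp
    simp only [hG]
    rw [e]
    refine (gauge_add_le hcv (absorbent_nhds_zero hK0) _ _).trans ?_
    rw [gauge_smul_of_nonneg hα, gauge_smul_of_nonneg hβ, smul_eq_mul, smul_eq_mul]
  have hsum : ∀ (u v p q : ℝ), u ≤ v → G u ≤ p → G v ≤ q →
      ∀ s ∈ Icc u v, G s + G (u + v - s) ≤ p + q := by
    intro u v p q huv hp hq s hs
    rcases eq_or_lt_of_le huv with h | h
    · have hs' : s = u := le_antisymm (by rw [h]; exact hs.2) hs.1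
      rw [hs', h]
      have : v + v - v = v := by ring
      rw [this]
      have hGu : G v ≤ p := by rw [← h]; exact hp
      linarith
    · have hvu : 0 < v - u := by linarith
      have e1 := hconv u v ((v - s) / (v - u)) ((s - u) / (v - u))
        (div_nonneg (by linarith [hs.2]) hvu.le) (div_nonneg (by linarith [hs.1]) hvu.le)
        (by field_simp; ring)
      have e2 := hconv u v ((s - u) / (v - u)) ((v - s) / (v - u))
        (div_nonneg (by linarith [hs.1]) hvu.le) (div_nonneg (by linarith [hs.2]) hvu.le)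
        (by field_simp; ring)
      have f1 : (v - s) / (v - u) * u + (s - u) / (v - u) * v = s := by field_simp; ring
      have f2 : (s - u) / (v - u) * u + (v - s) / (v - u) * v = u + v - s := by
        field_simp; ring
      rw [f1] at e1
      rw [f2] at e2
      have f3 : (v - s) / (v - u) + (s - u) / (v - u) = 1 := by field_simp; ring
      have e3 : G s + G (u + v - s) ≤ ((v - s) / (v - u) + (s - u) / (v - u)) * (G u + G v) := by
        nlinarith
      rw [f3, one_mul] at e3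
      linarith
  have hsplit : ∫ s in a..b, G s = (∫ s in a..m, G s) + ∫ s in m..b, G s :=
    (intervalIntegral.integral_add_adjacent_intervals (hGc.intervalIntegrable _ _)
      (hGc.intervalIntegrable _ _)).symm
  rw [hsplit]
  have i1 := integral_le_trapezoid hGc hmab.1 (hsum a m 1 r hmab.1 hGa hGm)
  have i2 := integral_le_trapezoid hGc hmab.2 (hsum m b r 1 hmab.2 hGm hGb)
  calc _ ≤ (m - a) * ((1 + r) / 2) + (b - m) * ((r + 1) / 2) := add_le_add i1 i2
    _ = (b - a) * ((1 + r) / 2) := by ring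

end Vale.Agent.Lib.P243
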