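import Vale.Agent.Lib.P243.Sym
import Vale.Agent.Lib.P243.Affine

open MeasureTheory Set Module Metric
open scoped ENNReal Pointwise NNReal Topology

namespace Vale.Agent.Lib.P243

/-- Fubini in a splitting. -/
lemma lintegral_split {T : E3 ≃L[ℝ] E2 × ℝ} {c : ℝ}
    (hvol : ∀ S : Set E3, volume S =
        ENNReal.ofReal c * ((volume : Measure E2).prod (volume : Measure ℝ)) (T '' S))
    {f : E3 → ℝ≥0∞} (hf : Measurable f) :
    ∫⁻ x, f x = ENNReal.ofReal c * ∫⁻ y, ∫⁻ s, f (T.symm (y, s)) := by
  have hT : (volume : Measure E3) = ENNReal.ofReal c •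
      Measure.map T.symm ((volume : Measure E2).prod (volume : Measure ℝ)) := by
    ext S hS
    rw [hvol S, Measure.smul_apply, smul_eq_mul, Measure.map_apply T.symm.continuous.measurable hS]
    congr 2
    exact T.image_eq_preimage_symm S
  rw [hT, lintegral_smul_measure, smul_eq_mul, lintegral_map hf T.symm.continuous.measurable]
  congr 1
  exact lintegral_prod _ (hf.comp T.symm.continuous.measurable).aemeasurable

/-- The gauge has mean `3/4` on a symmetric (or any) body. -/
lemma gauge_mean {K : Set E3} (hK : IsCompact K) (hcv : Convex ℝ K)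
    (hK0 : K ∈ 𝓝 (0 : E3)) :
    ENNReal.ofReal (3 / 4) * volume K ≤ ∫⁻ x in K, ENNReal.ofReal (gauge K x) := by
  have hcont : Continuous (gauge K) := continuous_gauge hcv hK0
  have hKm : MeasurableSet K := hK.isClosed.measurableSet
  have hKfin : volume K ≠ ⊤ := hK.measure_lt_top.ne
  rw [lintegral_eq_lintegral_meas_lt _ (Filter.Eventually.of_forall fun x => gauge_nonneg x)
    hcont.measurable.aemeasurable]
  have hlow : ∀ t ∈ Ioo (0 : ℝ) 1, ENNReal.ofReal (1 - t ^ 3) * volume K ≤
      (volume.restrict K) {x | t < gauge K x} := by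
    intro t ht
    have hset : MeasurableSet {x | t < gauge K x} := measurableSet_lt measurable_const
      hcont.measurable
    rw [Measure.restrict_apply hset]
    have hsub : K \ (t • K) ⊆ {x | t < gauge K x} ∩ K := by
      rintro x ⟨hx, hxt⟩
      refine ⟨?_, hx⟩
      simp only [mem_ofPred_eq]
      by_contra hle
      push Not at hle
      apply hxt
      refine ⟨t⁻¹ • x, ?_, by simp [smul_inv_smul₀ ht.1.ne']⟩
      have h1 : gauge K (t⁻¹ • x) ≤ 1 := by
        rw [gauge_smul_of_nonneg (inv_nonneg.2 ht.1.le), smul_eq_mul, inv_mul_le_iff₀ ht.1, mul_one]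
        exact hle
      rwa [gauge_le_one_iff_mem_closure hcv hK0, hK.isClosed.closure_eq] at h1
    refine le_trans ?_ (measure_mono hsub)
    have hvt : volume (t • K) = ENNReal.ofReal (t ^ 3) * volume K := by
      rw [Measure.addHaar_smul]
      simp [abs_of_pos ht.1]
    have ht3 : t ^ 3 ≤ 1 := pow_le_one₀ ht.1.le ht.2.le
    refine le_trans ?_ (le_measure_sdiff)
    rw [hvt, ENNReal.ofReal_sub _ (by have := ht.1; positivity), ENNReal.ofReal_one,
      ENNReal.sub_mul (fun _ _ => hKfin), one_mul]
  have hint : ∫⁻ t in Ioo (0 : ℝ) 1, ENNReal.ofReal (1 - t ^ 3) = ENNReal.ofReal (3 / 4) := by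
    rw [← ofReal_integral_eq_lintegral_ofReal]
    · congr 1
      rw [← integral_Ioc_eq_integral_Ioo, ← intervalIntegral.integral_of_le zero_le_one,
        intervalIntegral.integral_sub (Continuous.intervalIntegrable (by fun_prop) _ _)
        (Continuous.intervalIntegrable (by fun_prop) _ _), intervalIntegral.integral_const,
        integral_pow]
      norm_num
    · exact (Continuous.integrableOn_Icc (by fun_prop)).mono_set Ioo_subset_Icc_self
    · rw [Filter.EventuallyLE, ae_restrict_iff' measurableSet_Ioo]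
      refine Filter.Eventually.of_forall fun t ht => ?_
      have ht3 : t ^ 3 ≤ 1 := pow_le_one₀ ht.1.le ht.2.le
      simp only [Pi.zero_apply]
      linarith
  calc ENNReal.ofReal (3 / 4) * volume K
      = ∫⁻ t in Ioo (0 : ℝ) 1, ENNReal.ofReal (1 - t ^ 3) * volume K := by
        rw [lintegral_mul_const _ (by fun_prop), hint]
    _ ≤ ∫⁻ t in Ioo (0 : ℝ) 1, (volume.restrict K) {x | t < gauge K x} :=
        setLIntegral_mono' measurableSet_Ioo hlow
    _ ≤ ∫⁻ t in Ioi (0 : ℝ), (volume.restrict K) {x | t < gauge K x} :=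
        lintegral_mono_set Ioo_subset_Ioi_self

/-- One cylinder against the density `1 + 2 * gauge K`. -/
lemma sym_dir {K : Set E3} (hK : IsCompact K) (hcv : Convex ℝ K) (hsym : ∀ x ∈ K, -x ∈ K)
    (hK0 : K ∈ 𝓝 (0 : E3)) {P : E3 →ₗ[ℝ] E2} (hP : Function.Surjective P)
    {B : Set E2} (hB : MeasurableSet B) :
    (∫⁻ x in K ∩ P ⁻¹' B, (1 + 2 * ENNReal.ofReal (gauge K x))) * volume (P '' K) ≤
      6 * volume K * volume B := by
  obtain ⟨T, c, hc0, hTP, hvol⟩ := exists_split P hP
  have hcont : Continuous (gauge K) := continuous_gauge hcv hK0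
  have hPcont : Continuous P := LinearMap.continuous_of_finiteDimensional P
  have hKm : MeasurableSet K := hK.isClosed.measurableSet
  have hset : MeasurableSet (K ∩ P ⁻¹' B) := hKm.inter (hPcont.measurable hB)
  set F : E3 → ℝ≥0∞ := fun x => 1 + 2 * ENNReal.ofReal (gauge K x) with hF
  have hFm : Measurable F := by
    have := hcont.measurable
    fun_prop
  have hFi : Measurable ((K ∩ P ⁻¹' B).indicator F) := hFm.indicator hset
  rw [← lintegral_indicator hset, lintegral_split hvol hFi]
  have hinner : Measurable fun y : E2 => ∫⁻ s, (K ∩ P ⁻¹' B).indicator F (T.symm (y, s)) :=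
    (hFi.comp T.symm.continuous.measurable).lintegral_prod_right'
  rw [← lintegral_const_mul _ hinner, ← lintegral_mul_const _ (hinner.const_mul _)]
  have hbound : ∀ y : E2, ENNReal.ofReal c *
      (∫⁻ s, (K ∩ P ⁻¹' B).indicator F (T.symm (y, s))) * volume (P '' K) ≤
      B.indicator (fun _ => 6 * volume K) y := by
    intro y
    have hPy : ∀ s, P (T.symm (y, s)) = y := fun s => by
      rw [← hTP, T.apply_symm_apply]
    by_cases hyB : y ∈ B
    swap
    · rw [indicator_of_notMem hyB]
      have : ∀ s, (K ∩ P ⁻¹' B).indicator F (T.symm (y, s)) = 0 := by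
        intro s
        apply indicator_of_notMem
        rintro ⟨_, h2⟩
        rw [mem_preimage, hPy] at h2
        exact hyB h2
      simp [this]
    rw [indicator_of_mem hyB]
    by_cases hy : y ∈ P '' K
    swap
    · have : ∀ s, (K ∩ P ⁻¹' B).indicator F (T.symm (y, s)) = 0 := by
        intro s
        apply indicator_of_notMem
        rintro ⟨h1, _⟩
        exact hy ⟨_, h1, hPy s⟩
      simp [this]
    have hy' : y ∈ Prod.fst '' (T '' K) := by
      obtain ⟨x, hx, rfl⟩ := hy
      exact ⟨T x, ⟨x, hx, rfl⟩, hTP x⟩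
    obtain ⟨a, b, hab, hfib⟩ := fiber_eq_Icc (hK.image T.continuous)
      (hcv.linear_image (T : E3 →ₗ[ℝ] E2 × ℝ)) hy'
    have hmem : ∀ s, s ∈ Icc a b ↔ T.symm (y, s) ∈ K := by
      intro s
      rw [← hfib]
      constructor
      · rintro ⟨x, hx, hxe⟩
        rw [← hxe]
        erw [T.symm_apply_apply]
        exact hx
      · intro h
        exact ⟨_, h, T.apply_symm_apply _⟩
    have hind : ∀ s, (K ∩ P ⁻¹' B).indicator F (T.symm (y, s)) =
        (Icc a b).indicator (fun s => F (T.symm (y, s))) s := by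
      intro s
      by_cases hs : s ∈ Icc a b
      · rw [indicator_of_mem hs, indicator_of_mem]
        exact ⟨(hmem s).1 hs, by rw [mem_preimage, hPy]; exact hyB⟩
      · rw [indicator_of_notMem hs, indicator_of_notMem]
        rintro ⟨h1, _⟩
        exact hs ((hmem s).2 h1)
    simp_rw [hind]
    rw [lintegral_indicator measurableSet_Icc]
    set r := gauge (P '' K) y with hr
    have hr0 : 0 ≤ r := gauge_nonneg _
    set G : ℝ → ℝ := fun s => gauge K (T.symm (y, s)) with hG
    have hGc : Continuous G := hcont.comp (T.symm.continuous.comp (by fun_prop))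
    have hmean := sym_mean hK hcv hK0 hP hTP hy hab hfib
    have hfi : ∫⁻ s in Icc a b, F (T.symm (y, s)) ≤ ENNReal.ofReal ((b - a) * (2 + r)) := by
      have e1 : ∫⁻ s in Icc a b, F (T.symm (y, s)) =
          ENNReal.ofReal (b - a) + 2 * ENNReal.ofReal (∫ s in a..b, G s) := by
        simp only [hF]
        rw [lintegral_add_left measurable_const, setLIntegral_const, Real.volume_Icc, one_mul,
          lintegral_const_mul _ (hGc.measurable.ennreal_ofReal)]
        congr 2
        rw [intervalIntegral.integral_of_le hab, ← integral_Icc_eq_integral_Ioc,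
          ofReal_integral_eq_lintegral_ofReal]
        · exact hGc.continuousOn.integrableOn_Icc
        · exact Filter.Eventually.of_forall fun s => gauge_nonneg _
      rw [e1]
      have e2 : (2 : ℝ≥0∞) = ENNReal.ofReal 2 := by simp
      have hG0 : 0 ≤ ∫ s in a..b, G s :=
        intervalIntegral.integral_nonneg hab fun s _ => gauge_nonneg _
      rw [e2, ← ENNReal.ofReal_mul (by norm_num), ← ENNReal.ofReal_add (by linarith) (by positivity)]
      apply ENNReal.ofReal_le_ofReal
      have : ∫ s in a..b, G s ≤ (b - a) * ((1 + r) / 2) := hmean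
      linarith
    rcases eq_or_lt_of_le hab with hab' | hab'
    · have h0 : ENNReal.ofReal ((b - a) * (2 + r)) = 0 := by
        rw [hab', sub_self, zero_mul, ENNReal.ofReal_zero]
      rw [h0] at hfi
      have : ∫⁻ s in Icc a b, F (T.symm (y, s)) = 0 := le_antisymm hfi zero_le
      rw [this]
      simp
    · have hch := sym_chord hK hcv hsym hK0 hP hc0 hTP hvol hab' hfib
      calc ENNReal.ofReal c * (∫⁻ s in Icc a b, F (T.symm (y, s))) * volume (P '' K)
          ≤ ENNReal.ofReal c * ENNReal.ofReal ((b - a) * (2 + r)) * volume (P '' K) := by gcongr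
        _ = 6 * (ENNReal.ofReal (c * (b - a) * (1 / 3 + r / 6)) * volume (P '' K)) := by
          have e6 : (6 : ℝ≥0∞) = ENNReal.ofReal 6 := by simp
          rw [e6, ← mul_assoc, ← ENNReal.ofReal_mul hc0.le, ← ENNReal.ofReal_mul (by norm_num)]
          congr 2
          ring
        _ ≤ 6 * volume K := by gcongr
  calc _ ≤ ∫⁻ y, B.indicator (fun _ => 6 * volume K) y := lintegral_mono hbound
    _ = 6 * volume K * volume B := by
      rw [lintegral_indicator hB, setLIntegral_const]

/-- Covers of bodies symmetric about the origin. -/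
theorem good_sym_zero {K : Set E3} (hK : IsCompact K) (hcv : Convex ℝ K)
    (hne : (interior K).Nonempty) (hsym : ∀ x ∈ K, -x ∈ K) : Good K (1 / 12) := by
  have hK0 : K ∈ 𝓝 (0 : E3) := by
    obtain ⟨x, hx⟩ := hne
    rw [mem_interior_iff_mem_nhds] at hx
    have h2 : -x ∈ K := hsym x (mem_of_mem_nhds hx)
    have hx' : x ∈ interior K := mem_interior_iff_mem_nhds.2 hx
    have h3 : (1 / 2 : ℝ) • x + (1 / 2 : ℝ) • (-x) ∈ interior K :=
      hcv.combo_interior_self_mem_interior hx' h2 (by norm_num) (by norm_num) (by norm_num)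
    have : (1 / 2 : ℝ) • x + (1 / 2 : ℝ) • (-x) = 0 := by simp
    rw [this] at h3
    exact mem_interior_iff_mem_nhds.1 h3
  intro n P B hP hB hcov
  have hKm : MeasurableSet K := hK.isClosed.measurableSet
  have hcont : Continuous (gauge K) := continuous_gauge hcv hK0
  have hPfin : ∀ i, volume (P i '' K) ≠ ⊤ := fun i =>
    (hK.image (LinearMap.continuous_of_finiteDimensional (P i))).measure_lt_top.ne
  have hPpos : ∀ i, volume (P i '' K) ≠ 0 := fun i => image_volume_pos hne (hP i)
  have hKfin : volume K ≠ ⊤ := hK.measure_lt_top.ne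
  have hKpos : volume K ≠ 0 :=
    ((isOpen_interior.measure_pos volume hne).trans_le (measure_mono interior_subset)).ne'
  have hmass : ENNReal.ofReal (5 / 2) * volume K ≤
      ∫⁻ x in K, (1 + 2 * ENNReal.ofReal (gauge K x)) := by
    rw [lintegral_add_left measurable_const, setLIntegral_const, one_mul,
      lintegral_const_mul _ (hcont.measurable.ennreal_ofReal)]
    have := gauge_mean hK hcv hK0
    calc ENNReal.ofReal (5 / 2) * volume K = volume K + 2 * (ENNReal.ofReal (3 / 4) * volume K) := by
          have e2 : ENNReal.ofReal (5 / 2) = 1 + 2 * ENNReal.ofReal (3 / 4) := by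
            have e3 : (2 : ℝ≥0∞) = ENNReal.ofReal 2 := by simp
            rw [e3, ← ENNReal.ofReal_mul (by norm_num), ← ENNReal.ofReal_one,
              ← ENNReal.ofReal_add (by norm_num) (by norm_num)]
            congr 1
            norm_num
          rw [e2, add_mul, one_mul, mul_assoc]
      _ ≤ _ := by gcongr
  have hdir : ∀ i, ∫⁻ x in K ∩ P i ⁻¹' B i, (1 + 2 * ENNReal.ofReal (gauge K x)) ≤
      6 * volume K * (volume (B i) / volume (P i '' K)) := by
    intro i
    rw [← mul_div_assoc, ENNReal.le_div_iff_mul_le (Or.inl (hPpos i)) (Or.inl (hPfin i))]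
    exact sym_dir hK hcv hsym hK0 (hP i) (hB i)
  have hcover : ∫⁻ x in K, (1 + 2 * ENNReal.ofReal (gauge K x)) ≤
      ∑ i, ∫⁻ x in K ∩ P i ⁻¹' B i, (1 + 2 * ENNReal.ofReal (gauge K x)) := by
    calc _ ≤ ∫⁻ x in ⋃ i, K ∩ P i ⁻¹' B i, (1 + 2 * ENNReal.ofReal (gauge K x)) := by
          apply lintegral_mono_set
          rw [← inter_iUnion]
          exact subset_inter Subset.rfl hcov
      _ ≤ ∑' i, ∫⁻ x in K ∩ P i ⁻¹' B i, (1 + 2 * ENNReal.ofReal (gauge K x)) :=
          lintegral_iUnion_le _ _
      _ = _ := tsum_fintype _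
  have hfinal : ENNReal.ofReal (5 / 2) * volume K ≤
      6 * volume K * ∑ i, volume (B i) / volume (P i '' K) := by
    rw [Finset.mul_sum]
    exact hmass.trans (hcover.trans (Finset.sum_le_sum fun i _ => hdir i))
  have h2 : ENNReal.ofReal (1 / 3 + 1 / 12) = (ENNReal.ofReal (5 / 2) * volume K) /
      (6 * volume K) := by
    rw [ENNReal.mul_div_mul_right _ _ hKpos hKfin]
    have e6 : (6 : ℝ≥0∞) = ENNReal.ofReal 6 := by simp
    rw [e6, ← ENNReal.ofReal_div_of_pos (by norm_num)]
    congr 1
    norm_num
  rw [h2]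
  exact ENNReal.div_le_of_le_mul' hfinal

/-- Covers of centrally symmetric bodies. -/
theorem good_sym {K : Set E3} (hK : IsCompact K) (hcv : Convex ℝ K)
    (hne : (interior K).Nonempty) {p : E3} (hsym : ∀ x ∈ K, (2 : ℝ) • p - x ∈ K) :
    Good K (1 / 12) := by
  set K' : Set E3 := (fun x => x + (-p)) '' K with hK'
  have h1 : IsCompact K' := hK.image (by fun_prop)
  have h2 : Convex ℝ K' := by
    have := hcv.translate (-p)
    have he : (fun x => x + -p) '' K = (fun x => -p + x) '' K :=
      image_congr fun x _ => add_comm _ _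
    rw [hK', he]
    exact this
  have h3 : (interior K').Nonempty := by
    have : K' = (Homeomorph.addRight (-p)) '' K := rfl
    rw [this, ← (Homeomorph.addRight (-p)).image_interior]
    exact hne.image _
  have h4 : ∀ x ∈ K', -x ∈ K' := by
    rintro _ ⟨x, hx, rfl⟩
    refine ⟨_, hsym x hx, ?_⟩
    simp only [two_smul]
    abel
  have h5 := good_sym_zero h1 h2 h3 h4
  have h6 := h5.affine (ContinuousLinearEquiv.refl ℝ E3) p
  have h7 : (fun x => (ContinuousLinearEquiv.refl ℝ E3) x + p) '' K' = K := by
    rw [hK', image_image]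
    simp
  rwa [h7] at h6

end Vale.Agent.Lib.P243
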