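import Vale.Agent.Lib.P243.Affine

open MeasureTheory Set Module Metric TopologicalSpace
open scoped ENNReal Pointwise NNReal Topology

namespace Vale.Agent.Lib.P243

/-- Normalized bodies. -/
def normBodies (z : E3) (ρ R : ℝ) : Set (NonemptyCompacts E3) :=
  {L | Convex ℝ (L : Set E3) ∧ closedBall z ρ ⊆ (L : Set E3) ∧ (L : Set E3) ⊆ closedBall 0 R}

lemma exists_close {L L' : NonemptyCompacts E3} {δ : ℝ} (h : dist L L' < δ) {x : E3}
    (hx : x ∈ (L : Set E3)) : ∃ x' ∈ (L' : Set E3), dist x x' < δ := by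
  rw [Metric.NonemptyCompacts.dist_eq] at h
  exact exists_dist_lt_of_hausdorffDist_lt hx h
    (hausdorffEDist_ne_top_of_nonempty_of_bounded L.nonempty L'.nonempty L.isCompact.isBounded
      L'.isCompact.isBounded)

lemma isClosed_convex : IsClosed {L : NonemptyCompacts E3 | Convex ℝ (L : Set E3)} := by
  rw [← isSeqClosed_iff_isClosed]
  intro u L hu hL x hx y hy a b ha hb hab
  have hLc : IsClosed (L : Set E3) := L.isCompact.isClosed
  rw [← hLc.closure_eq, Metric.mem_closure_iff]
  intro ε hε
  rw [Metric.tendsto_atTop] at hL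
  obtain ⟨N, hN⟩ := hL (ε / 2) (by positivity)
  have hN' := hN N le_rfl
  have hN'' : dist L (u N) < ε / 2 := by rw [dist_comm]; exact hN'
  obtain ⟨x', hx', hxx'⟩ := exists_close hN'' hx
  obtain ⟨y', hy', hyy'⟩ := exists_close hN'' hy
  have hz' := hu N hx' hy' ha hb hab
  obtain ⟨z, hz, hzz'⟩ := exists_close hN' hz'
  refine ⟨z, hz, ?_⟩
  calc dist (a • x + b • y) z ≤ dist (a • x + b • y) (a • x' + b • y') +
        dist (a • x' + b • y') z := dist_triangle _ _ _
    _ ≤ (dist (a • x) (a • x') + dist (b • y) (b • y')) + dist (a • x' + b • y') z := by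
        gcongr
        exact dist_add_add_le _ _ _ _
    _ = (a * dist x x' + b * dist y y') + dist (a • x' + b • y') z := by
        rw [dist_smul₀, dist_smul₀, Real.norm_of_nonneg ha, Real.norm_of_nonneg hb]
    _ < (a * (ε / 2) + b * (ε / 2)) + ε / 2 := by
        apply add_lt_add_of_le_of_lt _ hzz'
        gcongr
    _ = ε := by rw [← add_mul, hab]; ring

lemma isClosed_mem (x : E3) : IsClosed {L : NonemptyCompacts E3 | x ∈ (L : Set E3)} := by
  have : {L : NonemptyCompacts E3 | x ∈ (L : Set E3)} =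
      {L : NonemptyCompacts E3 | infDist x (L : Set E3) = 0} := by
    ext L
    exact L.isCompact.isClosed.mem_iff_infDist_zero L.nonempty
  rw [this]
  exact isClosed_eq (Metric.lipschitz_infDist_set x).continuous continuous_const

lemma normBodies_isCompact (z : E3) (ρ R : ℝ) : IsCompact (normBodies z ρ R) := by
  have hcomp : IsCompact {L : NonemptyCompacts E3 | (L : Set E3) ⊆ closedBall 0 R} :=
    NonemptyCompacts.isCompact_subsets_of_isCompact (isCompact_closedBall 0 R)
  have heq : normBodies z ρ R = {L : NonemptyCompacts E3 | (L : Set E3) ⊆ closedBall 0 R} ∩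
      ({L : NonemptyCompacts E3 | Convex ℝ (L : Set E3)} ∩
        ⋂ x ∈ closedBall z ρ, {L : NonemptyCompacts E3 | x ∈ (L : Set E3)}) := by
    ext L
    simp only [normBodies, mem_ofPred_eq, mem_inter_iff, mem_iInter]
    constructor
    · rintro ⟨h1, h2, h3⟩
      exact ⟨h3, h1, fun x hx => h2 hx⟩
    · rintro ⟨h3, h1, h2⟩
      exact ⟨h1, fun x hx => h2 x hx, h3⟩
  rw [heq]
  apply hcomp.inter_right
  apply isClosed_convex.inter
  exact isClosed_biInter fun x _ => isClosed_mem x

/-- Translation of the single-body result. -/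
lemma good_of_closedBall {K : Set E3} (hK : IsCompact K) (hcv : Convex ℝ K) {g : E3} {r : ℝ}
    (hr : 0 < r) (hball : closedBall g r ⊆ K) : ∃ ε > 0, Good K ε := by
  let K0 : Set E3 := (fun x => x - g) '' K
  have hK0 : IsCompact K0 := hK.image (by fun_prop)
  have hK0c : Convex ℝ K0 := by
    have : K0 = (-g) +ᵥ K := by
      ext x
      simp only [K0, mem_image, mem_vadd_set, vadd_eq_add]
      constructor
      · rintro ⟨y, hy, rfl⟩; exact ⟨y, hy, by abel⟩
      · rintro ⟨y, hy, rfl⟩; exact ⟨y, hy, by abel⟩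
    rw [this]
    exact hcv.vadd _
  have hb0 : closedBall 0 r ⊆ K0 := by
    intro x hx
    refine ⟨x + g, hball ?_, by simp⟩
    rw [mem_closedBall, dist_eq_norm] at hx ⊢
    simpa using hx
  obtain ⟨ε, hε, hgood⟩ := good_of_ball hK0 hK0c hr hb0
  refine ⟨ε, hε, ?_⟩
  have h := hgood.affine (ContinuousLinearEquiv.refl ℝ E3) g
  have heq : (fun x => (ContinuousLinearEquiv.refl ℝ E3) x + g) '' K0 = K := by
    rw [image_image]
    simp
  rwa [heq] at h

/-- Uniform constant over normalized bodies. -/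
lemma uniform_normBodies (z : E3) {ρ : ℝ} (hρ : 0 < ρ) (R : ℝ) :
    ∃ ε > 0, ∀ L ∈ normBodies z ρ R, Good (L : Set E3) ε := by
  let p : Set (NonemptyCompacts E3) → Prop := fun s =>
    ∃ ε > 0, ∀ L ∈ s, L ∈ normBodies z ρ R → Good (L : Set E3) ε
  have hp : p (normBodies z ρ R) := by
    apply (normBodies_isCompact z ρ R).induction_on (p := p)
    · exact ⟨1, one_pos, fun L hL => absurd hL (notMem_empty _)⟩
    · rintro s t hst ⟨ε, hε, h⟩
      exact ⟨ε, hε, fun L hL => h L (hst hL)⟩
    · rintro s t ⟨ε, hε, h⟩ ⟨ε', hε', h'⟩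
      refine ⟨min ε ε', lt_min hε hε', fun L hL hLn => ?_⟩
      rcases hL with hL | hL
      · exact (h L hL hLn).mono (min_le_left _ _)
      · exact (h' L hL hLn).mono (min_le_right _ _)
    · intro L hL
      obtain ⟨hLc, hLb, hLR⟩ := hL
      obtain ⟨ε, hε, hgood⟩ := good_of_closedBall L.isCompact hLc hρ hLb
      -- choose `a` with `(1+a)^4 (1/3 + ε/2) ≤ 1/3 + ε`
      obtain ⟨a, ha0, ha⟩ : ∃ a > 0, 1 / 3 + ε / 2 ≤ (1 / 3 + ε) / (1 + a) ^ 4 := by
        have hcont : Filter.Tendsto (fun a : ℝ => (1 / 3 + ε) / (1 + a) ^ 4) (𝓝 0)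
            (𝓝 ((1 / 3 + ε) / (1 + 0) ^ 4)) := by
          apply ContinuousAt.tendsto (f := fun a : ℝ => (1 / 3 + ε) / (1 + a) ^ 4)
          apply ContinuousAt.div (by fun_prop) (by fun_prop)
          norm_num
        have hlt : 1 / 3 + ε / 2 < (1 / 3 + ε) / (1 + 0) ^ 4 := by
          norm_num; linarith
        have hev := hcont.eventually (lt_mem_nhds hlt)
        obtain ⟨η, hη, hη'⟩ := Metric.eventually_nhds_iff.1 hev
        refine ⟨η / 2, by positivity, (hη' ?_).le⟩
        rw [Real.dist_eq, sub_zero, abs_of_pos (by positivity)]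
        linarith
      have hδ : 0 < a * ρ := by positivity
      refine ⟨ball L (a * ρ), mem_nhdsWithin_of_mem_nhds (ball_mem_nhds L hδ), ε / 2,
        by positivity, fun L' hL' hL'n => ?_⟩
      obtain ⟨hL'c, hL'b, hL'R⟩ := hL'n
      rw [mem_ball] at hL'
      have hdiv : a * ρ / ρ = a := by field_simp
      have s1 := sandwich_of_close (K := (L : Set E3)) hL'c hρ hδ hL'b (fun x hx => by
        rw [dist_comm] at hL'
        obtain ⟨x', hx', hd⟩ := exists_close hL' hx
        exact ⟨x', hx', hd.le⟩)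
      have s2 := sandwich_of_close (K := (L' : Set E3)) hLc hρ hδ hLb (fun x hx => by
        obtain ⟨x', hx', hd⟩ := exists_close hL' hx
        exact ⟨x', hx', hd.le⟩)
      rw [hdiv] at s1 s2
      exact hgood.sandwich ha0.le z s1 s2 ha
  obtain ⟨ε, hε, h⟩ := hp
  exact ⟨ε, hε, fun L hL => h L hL hL⟩

/-- The centre of the inscribed ball of normalized bodies. -/
noncomputable def ctr : E3 := WithLp.toLp 2 fun _ => (1 / 4 : ℝ)

/-- Affine normalization of a convex body. -/
lemma normalize {K : Set E3} (hK : IsCompact K) (hcv : Convex ℝ K) (hne : (interior K).Nonempty) :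
    ∃ (A : E3 ≃L[ℝ] E3) (z : E3), closedBall ctr (1 / 8) ⊆ (fun x => A x + z) '' K ∧
      (fun x => A x + z) '' K ⊆ closedBall 0 2 := by
  obtain ⟨g, hg⟩ := hne
  obtain ⟨r, hr, hball⟩ := Metric.nhds_basis_closedBall.mem_iff.1 (mem_interior_iff_mem_nhds.1 hg)
  have hgK : g ∈ K := interior_subset hg
  let b : Basis (Fin 3) ℝ E3 := (EuclideanSpace.basisFun (Fin 3) ℝ).toBasis
  let d : (Fin 3 → E3) → ℝ := fun v => |b.det fun i => v i - g|
  have hdc : Continuous d := by
    have h1 : Continuous fun u : Fin 3 → E3 => b.det u := by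
      have : (fun u : Fin 3 → E3 => b.det u) = fun u => Matrix.det (fun i j => b.repr (u j) i) := by
        ext u
        rw [Basis.det_apply]
        rfl
      rw [this]
      apply Continuous.matrix_det
      refine continuous_pi fun i => continuous_pi fun j => ?_
      simp only [b, OrthonormalBasis.coe_toBasis_repr_apply, EuclideanSpace.basisFun_repr]
      fun_prop
    exact (h1.comp (by fun_prop : Continuous fun v : Fin 3 → E3 => fun i => v i - g)).abs
  have hKpi : IsCompact (univ.pi fun _ : Fin 3 => K) := isCompact_univ_pi fun _ => hK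
  obtain ⟨v, hvK, hvmax⟩ := hKpi.exists_isMaxOn ⟨fun _ => g, fun _ _ => hgK⟩ hdc.continuousOn
  have hvK' : ∀ i, v i ∈ K := fun i => hvK i (mem_univ i)
  let u : Fin 3 → E3 := fun i => v i - g
  have hdet : b.det u ≠ 0 := by
    have h1 : (fun i => g + r • b i) ∈ univ.pi fun _ : Fin 3 => K := by
      intro i _
      apply hball
      rw [mem_closedBall, dist_eq_norm, add_sub_cancel_left, norm_smul, Real.norm_of_nonneg hr.le]
      simp [b]
    have h2 := hvmax h1
    simp only [d, mem_ofPred_eq, add_sub_cancel_left] at h2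
    have h3 : b.det (fun i => r • b i) = r ^ 3 := by
      have := b.det.map_smul_univ (fun _ : Fin 3 => r) b
      rw [this, b.det_self]
      simp
    rw [h3, abs_of_pos (by positivity)] at h2
    intro h0
    change r ^ 3 ≤ |b.det u| at h2
    rw [h0, abs_zero] at h2
    have : 0 < r ^ 3 := by positivity
    linarith
  have hunit : IsUnit (b.det u) := isUnit_iff_ne_zero.2 hdet
  obtain ⟨hli, hspan⟩ := (Basis.is_basis_iff_det b).2 hunit
  let ub : Basis (Fin 3) ℝ E3 := Basis.mk hli hspan.ge
  have hub : ∀ i, ub i = u i := fun i => by simp [ub]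
  let A : E3 ≃L[ℝ] E3 := (ub.equiv b (Equiv.refl _)).toContinuousLinearEquiv
  have hAu : ∀ i, A (u i) = b i := fun i => by
    rw [← hub]
    simp [A]
  have hAcoord : ∀ x i, (A x) i = ub.repr x i := by
    intro x i
    have h1 : A x = ∑ j, ub.repr x j • b j := by
      conv_lhs => rw [← ub.sum_repr x]
      rw [map_sum]
      simp only [map_smul, hub, hAu]
    rw [h1]
    simp [b, Pi.single_apply]
  have hcoord : ∀ x ∈ K, ∀ i, |ub.repr (x - g) i| ≤ 1 := by
    intro x hx i
    have h1 : Function.update v i x ∈ univ.pi fun _ : Fin 3 => K := by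
      intro j _
      by_cases hj : j = i
      · subst hj; simpa using hx
      · simpa [hj] using hvK' j
    have h2 := hvmax h1
    simp only [d, mem_ofPred_eq] at h2
    have h3 : (fun j => Function.update v i x j - g) = Function.update u i (x - g) := by
      ext1 j
      by_cases hj : j = i
      · subst hj; simp
      · simp [hj, u]
    rw [h3] at h2
    change |b.det (Function.update u i (x - g))| ≤ |b.det u| at h2
    have h4 : b.det (Function.update u i (x - g)) = ub.repr (x - g) i * b.det u := by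
      conv_lhs => rw [← ub.sum_repr (x - g)]
      rw [AlternatingMap.map_update_sum]
      rw [Finset.sum_eq_single i]
      · rw [AlternatingMap.map_update_smul, hub, Function.update_eq_self, smul_eq_mul]
      · intro j _ hji
        rw [AlternatingMap.map_update_smul, hub,
          b.det.map_update_self u hji.symm, smul_zero]
      · intro h; exact absurd (Finset.mem_univ i) h
    rw [h4, abs_mul] at h2
    have h5 : 0 < |b.det u| := abs_pos.2 hdet
    exact le_of_mul_le_mul_right (by linarith) h5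
  have hA : ∀ x, A x + -(A g) = A (x - g) := fun x => by rw [map_sub]; abel
  refine ⟨A, -(A g), ?_, ?_⟩
  · intro x hx
    have hKt : Convex ℝ ((fun x => A x + -(A g)) '' K) := by
      have : (fun x => A x + -(A g)) '' K = (-(A g)) +ᵥ (A '' K) := by
        ext x
        simp only [mem_image, mem_vadd_set, vadd_eq_add]
        constructor
        · rintro ⟨y, hy, rfl⟩; exact ⟨A y, ⟨y, hy, rfl⟩, by abel⟩
        · rintro ⟨_, ⟨y, hy, rfl⟩, rfl⟩; exact ⟨y, hy, by abel⟩
      rw [this]
      exact (hcv.linear_image (A : E3 →ₗ[ℝ] E3)).vadd _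
    have h0 : (0 : E3) ∈ (fun x => A x + -(A g)) '' K := ⟨g, hgK, by simp⟩
    have hb : ∀ i, b i ∈ (fun x => A x + -(A g)) '' K := fun i =>
      ⟨v i, hvK' i, by simp only; rw [hA]; exact hAu i⟩
    have hxi : ∀ i, |x i - 1 / 4| ≤ 1 / 8 := by
      intro i
      rw [mem_closedBall, dist_eq_norm] at hx
      have h1 : ‖(x - ctr) i‖ ≤ ‖x - ctr‖ := PiLp.norm_apply_le (x - ctr) i
      have h2 : (x - ctr) i = x i - 1 / 4 := by simp [ctr]
      rw [h2, Real.norm_eq_abs] at h1
      exact h1.trans hx
    have hxpos : ∀ i, 0 < x i := fun i => by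
      have := (abs_le.1 (hxi i)).1
      linarith
    have hsum : x 0 + x 1 + x 2 ≤ 1 := by
      have hx' : ‖x - ctr‖ ^ 2 ≤ (1 / 8) ^ 2 := by
        rw [mem_closedBall, dist_eq_norm] at hx
        gcongr
      rw [EuclideanSpace.norm_sq_eq, Fin.sum_univ_three] at hx'
      simp only [Real.norm_eq_abs, sq_abs] at hx'
      have e : ∀ i, (x - ctr) i = x i - 1 / 4 := fun i => by simp [ctr]
      rw [e, e, e] at hx'
      nlinarith [sq_nonneg (x 0 - x 1), sq_nonneg (x 1 - x 2), sq_nonneg (x 0 - x 2)]
    set s := x 0 + x 1 + x 2 with hs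
    have hs0 : 0 < s := by have := hxpos 0; have := hxpos 1; have := hxpos 2; linarith
    have hy : ∑ i, (x i / s) • b i ∈ (fun x => A x + -(A g)) '' K := by
      apply hKt.sum_mem (fun i _ => (div_pos (hxpos i) hs0).le)
      · rw [← Finset.sum_div, Fin.sum_univ_three, ← hs, div_self hs0.ne']
      · exact fun i _ => hb i
    have hz := hKt.smul_mem_of_zero_mem h0 hy ⟨hs0.le, hsum⟩
    have hfin : s • ∑ i, (x i / s) • b i = x := by
      rw [Finset.smul_sum]
      ext j
      simp only [smul_smul, mul_div_cancel₀ _ hs0.ne']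
      simp [b, Pi.single_apply]
    rwa [hfin] at hz
  · rintro _ ⟨x, hx, rfl⟩
    simp only
    rw [hA, mem_closedBall, dist_zero_right]
    have h1 : ‖A (x - g)‖ ^ 2 ≤ 3 := by
      rw [EuclideanSpace.norm_sq_eq, Fin.sum_univ_three]
      have h2 : ∀ i, ‖(A (x - g)) i‖ ^ 2 ≤ 1 := by
        intro i
        rw [hAcoord, Real.norm_eq_abs]
        have := hcoord x hx i
        exact pow_le_one₀ (abs_nonneg _) this
      have := h2 0
      have := h2 1
      have := h2 2
      linarith
    nlinarith [norm_nonneg (A (x - g))]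

/-- There is a universal `ε > 0`. -/
theorem exists_uniform : ∃ ε > 0, ∀ K : Set E3, IsCompact K → Convex ℝ K →
    (interior K).Nonempty → Good K ε := by
  obtain ⟨ε, hε, h⟩ := uniform_normBodies ctr (by norm_num : (0 : ℝ) < 1 / 8) 2
  refine ⟨ε, hε, fun K hK hcv hne => ?_⟩
  obtain ⟨A, z, h1, h2⟩ := normalize hK hcv hne
  have hKne : K.Nonempty := hne.mono interior_subset
  let L : NonemptyCompacts E3 := ⟨⟨(fun x => A x + z) '' K, hK.image (by fun_prop)⟩,
    hKne.image _⟩
  have hLc : Convex ℝ ((fun x => A x + z) '' K) := by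
    have : (fun x => A x + z) '' K = z +ᵥ (A '' K) := by
      ext x
      simp only [mem_image, mem_vadd_set, vadd_eq_add]
      constructor
      · rintro ⟨y, hy, rfl⟩; exact ⟨A y, ⟨y, hy, rfl⟩, by abel⟩
      · rintro ⟨_, ⟨y, hy, rfl⟩, rfl⟩; exact ⟨y, hy, by abel⟩
    rw [this]
    exact (hcv.linear_image (A : E3 →ₗ[ℝ] E3)).vadd _
  have hL : L ∈ normBodies ctr (1 / 8) 2 := ⟨hLc, h1, h2⟩
  have hgood : Good ((fun x => A x + z) '' K) ε := h L hL
  have h3 := hgood.affine A.symm (-(A.symm z))
  have heq : (fun x => A.symm x + -(A.symm z)) '' ((fun x => A x + z) '' K) = K := by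
    rw [image_image]
    simp
  rwa [heq] at h3

end Vale.Agent.Lib.P243
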