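import Vale.Agent.Lib.P243.Smooth

open MeasureTheory Set Module Metric
open scoped ENNReal Pointwise NNReal Topology

namespace Vale.Agent.Lib.P243

/-- The part of `K` near two of the three faces. -/
def wedgeSet (K : Set E3) (w : Fin 3 → E3) (τ : ℝ) : Set E3 :=
  {x | x ∈ K ∧ ∃ i j : Fin 3, i ≠ j ∧ 1 - inner ℝ (w i) x < τ ∧ 1 - inner ℝ (w j) x < τ}

lemma wedgeSet_measurable {K : Set E3} (hK : IsClosed K) (w : Fin 3 → E3) (τ : ℝ) :
    MeasurableSet (wedgeSet K w τ) := by
  have : wedgeSet K w τ = K ∩ ⋃ i : Fin 3, ⋃ j : Fin 3, ⋃ _ : i ≠ j,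
      {x | 1 - inner ℝ (w i) x < τ} ∩ {x | 1 - inner ℝ (w j) x < τ} := by
    ext x
    simp only [wedgeSet, mem_ofPred_eq, mem_inter_iff, mem_iUnion, exists_prop]
  rw [this]
  apply hK.measurableSet.inter
  refine MeasurableSet.iUnion fun i => MeasurableSet.iUnion fun j => MeasurableSet.iUnion fun _ => ?_
  have h : ∀ i, IsOpen {x : E3 | 1 - inner ℝ (w i) x < τ} := fun i =>
    isOpen_lt (by fun_prop) continuous_const
  exact ((h i).inter (h j)).measurableSet

/-- Volume bound for the wedge. -/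
lemma wedgeSet_volume {K : Set E3} {w : Fin 3 → E3} (hw : LinearIndependent ℝ w)
    {M : ℝ} (hM0 : 0 < M) (hM : ∀ i, ∀ x ∈ K, |inner ℝ (w i) x| ≤ M)
    (hle : ∀ i, ∀ x ∈ K, inner ℝ (w i) x ≤ 1) :
    ∃ C > 0, ∀ τ > 0, volume (wedgeSet K w τ) ≤ ENNReal.ofReal (C * τ ^ 2) := by
  let L : E3 →ₗ[ℝ] (Fin 3 → ℝ) :=
    LinearMap.pi fun i => ((InnerProductSpace.toDual ℝ E3 (w i)).toLinearMap : E3 →ₗ[ℝ] ℝ)
  have hL : ∀ x i, L x i = inner ℝ (w i) x := fun x i => by
    simp [L, InnerProductSpace.toDual_apply_apply]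
  have hspan : Submodule.span ℝ (range w) = ⊤ :=
    hw.span_eq_top_of_card_eq_finrank (by simp)
  have hinj : Function.Injective L := by
    rw [← LinearMap.ker_eq_bot, LinearMap.ker_eq_bot']
    intro x hx
    have h0 : ∀ i, inner ℝ (w i) x = 0 := fun i => by rw [← hL, hx]; rfl
    have hx' : x ∈ (Submodule.span ℝ (range w))ᗮ := by
      rw [Submodule.mem_orthogonal]
      intro u hu
      induction hu using Submodule.span_induction with
      | mem u hu => obtain ⟨i, rfl⟩ := hu; exact h0 i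
      | zero => simp
      | add u v _ _ hu hv => rw [inner_add_left, hu, hv, add_zero]
      | smul a u _ hu => rw [real_inner_smul_left, hu, mul_zero]
    rw [hspan, Submodule.top_orthogonal_eq_bot] at hx'
    simpa using hx'
  let Te : E3 ≃ₗ[ℝ] (Fin 3 → ℝ) := LinearMap.linearEquivOfInjective L hinj (by simp)
  let T : E3 ≃L[ℝ] (Fin 3 → ℝ) := Te.toContinuousLinearEquiv
  have hTL : ∀ x, T x = L x := fun x => by simp [T, Te]
  let μ' : Measure (Fin 3 → ℝ) := Measure.map T (volume : Measure E3)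
  have : μ'.IsAddHaarMeasure := T.isAddHaarMeasure_map _
  obtain ⟨c, hpos, hμ⟩ : ∃ c : ℝ≥0, 0 < c ∧ μ' = c • (volume : Measure (Fin 3 → ℝ)) :=
    ⟨μ'.addHaarScalarFactor volume, Measure.addHaarScalarFactor_pos_of_isAddHaarMeasure μ' volume,
      Measure.isAddLeftInvariant_eq_smul μ' volume⟩
  have hpre : ∀ A : Set (Fin 3 → ℝ), volume (T ⁻¹' A) = c * volume A := by
    intro A
    have h1 : μ' A = volume (T ⁻¹' A) :=
      T.toHomeomorph.toMeasurableEquiv.map_apply (μ := (volume : Measure E3)) A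
    rw [← h1, hμ, Measure.coe_nnreal_smul_apply]
  let box : Fin 3 → Fin 3 → ℝ → Set (Fin 3 → ℝ) := fun i j τ =>
    univ.pi fun k => if k = i ∨ k = j then Icc (1 - τ) 1 else Icc (-M) M
  have hbox : ∀ i j τ, i ≠ j → 0 < τ → volume (box i j τ) = ENNReal.ofReal (2 * M * τ ^ 2) := by
    intro i j τ hij hτ
    simp only [box]
    rw [volume_pi_pi, Fin.prod_univ_three]
    have e1 : volume (Icc (1 - τ) 1) = ENNReal.ofReal τ := by rw [Real.volume_Icc]; congr 1; ring
    have e2 : volume (Icc (-M) M) = ENNReal.ofReal (2 * M) := by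
      rw [Real.volume_Icc]; congr 1; ring
    have e3 : ENNReal.ofReal (2 * M * τ ^ 2) =
        ENNReal.ofReal (2 * M) * (ENNReal.ofReal τ * ENNReal.ofReal τ) := by
      rw [← ENNReal.ofReal_mul hτ.le, ← ENNReal.ofReal_mul (by positivity)]; congr 1; ring
    have hk : ∀ k : Fin 3, volume (if k = i ∨ k = j then Icc (1 - τ) 1 else Icc (-M) M) =
        if k = i ∨ k = j then ENNReal.ofReal τ else ENNReal.ofReal (2 * M) := by
      intro k
      split_ifs
      · exact e1
      · exact e2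
    rw [e3, hk, hk, hk]
    fin_cases i <;> fin_cases j <;> first | exact absurd rfl hij | (simp; try ring)
  refine ⟨9 * (c * (2 * M)), by positivity, fun τ hτ => ?_⟩
  have hsub : wedgeSet K w τ ⊆ ⋃ i : Fin 3, ⋃ j : Fin 3,
      (if i ≠ j then T ⁻¹' box i j τ else ∅) := by
    rintro x ⟨hxK, i, j, hij, hi, hj⟩
    simp only [mem_iUnion]
    refine ⟨i, j, ?_⟩
    rw [if_pos hij]
    simp only [box, mem_preimage, mem_pi, mem_univ, true_implies]
    intro k
    rw [hTL, hL]
    by_cases hk : k = i ∨ k = j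
    · rw [if_pos hk]
      rcases hk with rfl | rfl
      · exact ⟨by linarith, hle _ x hxK⟩
      · exact ⟨by linarith, hle _ x hxK⟩
    · rw [if_neg hk]
      exact abs_le.1 (hM k x hxK)
  have hterm : ∀ i j : Fin 3, volume (if i ≠ j then T ⁻¹' box i j τ else ∅) ≤
      ENNReal.ofReal (c * (2 * M) * τ ^ 2) := by
    intro i j
    by_cases hij : i ≠ j
    · rw [if_pos hij, hpre, hbox i j τ hij hτ, mul_assoc (c : ℝ),
        ENNReal.ofReal_mul (q := 2 * M * τ ^ 2) (by positivity), ENNReal.ofReal_coe_nnreal]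
    · rw [if_neg hij]; simp
  calc volume (wedgeSet K w τ) ≤ _ := measure_mono hsub
    _ ≤ ∑ i : Fin 3, volume (⋃ j : Fin 3, (if i ≠ j then T ⁻¹' box i j τ else ∅)) :=
        measure_iUnion_fintype_le _ _
    _ ≤ ∑ i : Fin 3, ∑ j : Fin 3, volume (if i ≠ j then T ⁻¹' box i j τ else ∅) :=
        Finset.sum_le_sum fun i _ => measure_iUnion_fintype_le _ _
    _ ≤ ∑ i : Fin 3, ∑ j : Fin 3, ENNReal.ofReal (c * (2 * M) * τ ^ 2) :=
        Finset.sum_le_sum fun i _ => Finset.sum_le_sum fun j _ => hterm i j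
    _ = ENNReal.ofReal (9 * (c * (2 * M)) * τ ^ 2) := by
        simp only [Finset.sum_const, Finset.card_univ, Fintype.card_fin, nsmul_eq_mul]
        rw [← ENNReal.ofReal_natCast, ← ENNReal.ofReal_mul (by positivity),
          ← ENNReal.ofReal_mul (by positivity)]
        congr 1
        push_cast
        ring

end Vale.Agent.Lib.P243
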